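import Vale.Agent.P372.H750.Form

/-! A lower bound of the fidelity by the trace of the corner of a positive block matrix. -/

open Matrix Kronecker
open scoped ComplexOrder MatrixOrder

set_option linter.unusedSectionVars false

namespace Vale.Agent.P372.H750

variable {E F G : Type} [Fintype E] [DecidableEq E] [Fintype F] [DecidableEq F] [Fintype G]
  [DecidableEq G]

/-- `1 - Uᴴ U` is positive semidefinite. -/
def Ct (U : Matrix F E ℂ) : Prop := (1 - Uᴴ * U).PosSemidef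

theorem Ct.mul {U : Matrix G F ℂ} {V : Matrix F E ℂ} (hU : Ct U) (hV : Ct V) : Ct (U * V) := by
  have : 1 - (U * V)ᴴ * (U * V) = (1 - Vᴴ * V) + Vᴴ * (1 - Uᴴ * U) * V := by
    rw [conjTranspose_mul, Matrix.mul_sub, Matrix.sub_mul, Matrix.mul_one]
    simp only [Matrix.mul_assoc]
    abel
  unfold Ct
  rw [this]
  exact hV.add (hU.conjTranspose_mul_mul_same V)

theorem Ct.swap {U : Matrix G E ℂ} (hU : Ct U) : Ct Uᴴ := by
  letI : Invertible (1 : Matrix G G ℂ) := invertibleOne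
  letI : Invertible (1 : Matrix E E ℂ) := invertibleOne
  have h1 : (fromBlocks (1 : Matrix G G ℂ) U Uᴴ (1 : Matrix E E ℂ)).PosSemidef := by
    refine (PosDef.fromBlocks₁₁ U 1 PosDef.one).mpr ?_
    rw [inv_one, Matrix.mul_one]
    exact hU
  have h2 := (PosDef.fromBlocks₂₂ 1 U PosDef.one).mp h1
  rw [inv_one, Matrix.mul_one] at h2
  unfold Ct
  rw [conjTranspose_conjTranspose]
  exact h2

theorem Ct.contr {W : Matrix E E ℂ} (hW : Ct W) : Contr W := by
  refine ⟨?_, hW⟩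
  have h := hW.swap
  unfold Ct at h
  rwa [conjTranspose_conjTranspose] at h

/-- A bilinear lower bound: if the form is nonnegative, then so is its scaled version. -/
theorem cross_zero {a b : ℝ} (hb : 0 ≤ b) (h : ∀ t : ℝ, 0 ≤ t * a + t ^ 2 * b) : a = 0 := by
  by_contra ha
  have h1 := h (- a / (2 * (b + 1)))
  have h2 : 0 < b + 1 := by linarith
  have h3 : - a / (2 * (b + 1)) * a + (- a / (2 * (b + 1))) ^ 2 * b =
      - (a ^ 2 / (2 * (b + 1))) * (1 - b / (2 * (b + 1))) := by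
    field_simp
    ring
  rw [h3] at h1
  have h4 : 0 < a ^ 2 / (2 * (b + 1)) := by positivity
  have h5 : b / (2 * (b + 1)) < 1 := by
    rw [div_lt_one (by positivity)]
    linarith
  nlinarith

theorem corner_zero {X₀ X₁ g : Matrix E E ℂ}
    (h : ∀ p q : E → ℂ, 0 ≤ qf X₀ p p + 2 * qf g p q + qf X₁ q q) (hX : X₁.PosSemidef)
    {p : E → ℂ} (hp : X₀ *ᵥ p = 0) (q : E → ℂ) : qf g p q = 0 := by
  have h1 : qf X₀ p p = 0 := by rw [qf, hp, dotProduct_zero, Complex.zero_re]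
  have h2 : 2 * qf g p q = 0 := by
    refine cross_zero (qf_nonneg hX q) fun t => ?_
    have h3 := h p (t • q)
    rw [h1, qf_smul_right, qf_smul_right, qf_smul_left] at h3
    linarith
  linarith

theorem matrix_eq_zero_of_qf {g : Matrix F E ℂ} (h : ∀ p q, qf g p q = 0) : g = 0 := by
  have h1 : ∀ q, g *ᵥ q = 0 := by
    intro q
    have h2 := h (g *ᵥ q) q
    have h3 : qf (1 : Matrix F F ℂ) (g *ᵥ q) (g *ᵥ q) = 0 := by
      rw [qf, one_mulVec]
      exact h2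
    have h4 := qf_eq_zero PosSemidef.one h3
    rwa [one_mulVec] at h4
  apply ext_of_mulVec_single
  intro i
  rw [h1, zero_mulVec]

/-- Lower bound of the fidelity by the corner of a positive block matrix. -/
theorem fidelity_ge_corner (Φ₀ Φ₁ : Matrix G E ℂ) (g : Matrix E E ℂ)
    (h : ∀ p q : E → ℂ, 0 ≤ qf (Φ₀ᴴ * Φ₀) p p + 2 * qf g p q + qf (Φ₁ᴴ * Φ₁) q q) :
    g.trace.re ≤ traceNorm (Φ₀ * Φ₁ᴴ) := by
  have hX₀ := posSemidef_conjTranspose_mul_self Φ₀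
  have hX₁ := posSemidef_conjTranspose_mul_self Φ₁
  obtain ⟨Q₀, Q₀', S₀, hQ₀, hQ₀', hS₀, h0a, h0b, h0c, h0d⟩ := exists_sqrt_pinv hX₀
  obtain ⟨Q₁, Q₁', S₁, hQ₁, hQ₁', hS₁, h1a, h1b, h1c, h1d⟩ := exists_sqrt_pinv hX₁
  have hSh : ∀ {X Q' S : Matrix E E ℂ}, X.PosSemidef → Q'.PosSemidef → Q' * X * Q' = S →
      Sᴴ = S := by
    intro X Q' S hX hQ' hS
    rw [← hS, conjTranspose_mul, conjTranspose_mul, hX.1.eq, hQ'.1.eq, Matrix.mul_assoc]
  have hXS : ∀ {X Q Q' S : Matrix E E ℂ}, Q * Q = X → X * Q' = Q → Q' * X * Q' = S →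
      X * (1 - S) = 0 := by
    intro X Q Q' S h1 h2 h3
    have : X * S = X := by
      calc X * S = (X * Q') * (X * Q') := by rw [← h3]; simp only [Matrix.mul_assoc]
        _ = X := by rw [h2, h1]
    rw [Matrix.mul_sub, Matrix.mul_one, this, sub_self]
  have hS₀h := hSh hX₀ hQ₀' h0d
  have hS₁h := hSh hX₁ hQ₁' h1d
  have e0 : S₀ * g = g := by
    have h2 : (1 - S₀) * g = 0 := by
      apply matrix_eq_zero_of_qf
      intro p q
      have h3 := corner_zero h hX₁ (p := (1 - S₀) *ᵥ p) (by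
        rw [mulVec_mulVec, hXS h0a h0c h0d, zero_mulVec]) q
      rw [qf_mulVec_left, conjTranspose_sub, conjTranspose_one, hS₀h] at h3
      exact h3
    rw [Matrix.sub_mul, Matrix.one_mul, sub_eq_zero] at h2
    exact h2.symm
  have h' : ∀ p q : E → ℂ, 0 ≤ qf (Φ₁ᴴ * Φ₁) p p + 2 * qf gᴴ p q + qf (Φ₀ᴴ * Φ₀) q q := by
    intro p q
    have := h q p
    rw [← qf_conjTranspose g] at this
    linarith
  have e1 : g * S₁ = g := by
    have h2 : (1 - S₁) * gᴴ = 0 := by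
      apply matrix_eq_zero_of_qf
      intro p q
      have h3 := corner_zero h' hX₀ (p := (1 - S₁) *ᵥ p) (by
        rw [mulVec_mulVec, hXS h1a h1c h1d, zero_mulVec]) q
      rw [qf_mulVec_left, conjTranspose_sub, conjTranspose_one, hS₁h] at h3
      exact h3
    rw [Matrix.sub_mul, Matrix.one_mul, sub_eq_zero] at h2
    have h4 := congrArg conjTranspose h2
    rw [conjTranspose_mul, conjTranspose_conjTranspose, hS₁h] at h4
    exact h4.symm
  -- the contraction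
  set C := Q₀' * g * Q₁' with hC
  have hC1 : Ct C := by
    refine posSemidef_of_qf ?_ fun q => ?_
    · rw [IsHermitian, conjTranspose_sub, conjTranspose_one, conjTranspose_mul,
        conjTranspose_conjTranspose]
    · have h2 := h (Q₀' *ᵥ (-(C *ᵥ q))) (Q₁' *ᵥ q)
      rw [qf_mulVec_left, qf_mulVec_right, qf_mulVec_left, qf_mulVec_right, qf_mulVec_left,
        qf_mulVec_right, hQ₀'.1.eq, hQ₁'.1.eq, h0d, h1d, ← hC] at h2
      have h3 : ∀ u, qf S₀ u u ≤ qf (1 : Matrix E E ℂ) u u := by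
        intro u
        have := qf_nonneg hS₀ u
        rw [qf_sub] at this
        linarith
      have h4 : ∀ u, qf S₁ u u ≤ qf (1 : Matrix E E ℂ) u u := by
        intro u
        have := qf_nonneg hS₁ u
        rw [qf_sub] at this
        linarith
      have h5 := h3 (-(C *ᵥ q))
      have h6 := h4 q
      have h7 : qf (1 : Matrix E E ℂ) (-(C *ᵥ q)) (-(C *ᵥ q)) = qf (Cᴴ * C) q q := by
        rw [qf_neg_left, qf_neg_right, neg_neg, qf_mulVec_left, qf_mulVec_right, Matrix.mul_one]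
      have h8 : qf C (-(C *ᵥ q)) q = - qf (Cᴴ * C) q q := by
        rw [qf_neg_left, qf_mulVec_left]
      rw [h8] at h2
      rw [h7] at h5
      rw [qf_sub]
      linarith
  have hU : ∀ {Φ : Matrix G E ℂ} {Q' S : Matrix E E ℂ}, Q'.PosSemidef → (1 - S).PosSemidef →
      Q' * (Φᴴ * Φ) * Q' = S → Ct (Φ * Q') := by
    intro Φ Q' S h1 h2 h3
    have : (Φ * Q')ᴴ * (Φ * Q') = S := by
      rw [conjTranspose_mul, h1.isHermitian.eq, ← h3]
      simp only [Matrix.mul_assoc]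
    unfold Ct
    rw [this]
    exact h2
  have hU₀ := hU hQ₀' hS₀ h0d
  have hU₁ := hU hQ₁' hS₁ h1d
  have hW : Ct ((Φ₁ * Q₁') * (Cᴴ * (Φ₀ * Q₀')ᴴ)) := hU₁.mul (hC1.swap.mul hU₀.swap)
  have h1 := norm_trace_mul_le hW.contr (Φ₀ * Φ₁ᴴ)
  have h2 : ((Φ₁ * Q₁') * (Cᴴ * (Φ₀ * Q₀')ᴴ) * (Φ₀ * Φ₁ᴴ)).trace = (gᴴ).trace := by
    have e2 : (Φ₀ * Q₀')ᴴ * Φ₀ = Q₀ := by
      rw [conjTranspose_mul, hQ₀'.isHermitian.eq, Matrix.mul_assoc, h0b]
    have e3 : Φ₁ᴴ * (Φ₁ * Q₁') = Q₁ := by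
      rw [← Matrix.mul_assoc, h1c]
    have e4 : Q₀' * Q₀ = S₀ := by rw [← h0c, ← Matrix.mul_assoc, h0d]
    have e5 : Q₁ * Q₁' = S₁ := by rw [← h1b, h1d]
    calc ((Φ₁ * Q₁') * (Cᴴ * (Φ₀ * Q₀')ᴴ) * (Φ₀ * Φ₁ᴴ)).trace
        = ((Φ₁ * Q₁') * (Cᴴ * ((Φ₀ * Q₀')ᴴ * Φ₀) * Φ₁ᴴ)).trace := by
          simp only [Matrix.mul_assoc]
      _ = ((Cᴴ * ((Φ₀ * Q₀')ᴴ * Φ₀) * Φ₁ᴴ) * (Φ₁ * Q₁')).trace := by rw [trace_mul_comm]
      _ = (Cᴴ * Q₀ * Q₁).trace := by rw [e2, Matrix.mul_assoc, e3]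
      _ = (Q₁' * gᴴ * Q₀' * Q₀ * Q₁).trace := by
          rw [hC, conjTranspose_mul, conjTranspose_mul, hQ₀'.1.eq, hQ₁'.1.eq]
          simp only [Matrix.mul_assoc]
      _ = (Q₁ * (Q₁' * gᴴ * Q₀' * Q₀)).trace := by rw [trace_mul_comm]
      _ = ((Q₁ * Q₁') * gᴴ * (Q₀' * Q₀)).trace := by simp only [Matrix.mul_assoc]
      _ = (gᴴ).trace := by
          rw [e4, e5]
          have : (S₁ * gᴴ * S₀) = (S₀ * g * S₁)ᴴ := by
            rw [conjTranspose_mul, conjTranspose_mul, hS₀h, hS₁h, Matrix.mul_assoc]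
          rw [this, e0, e1]
  rw [h2, trace_conjTranspose, norm_star] at h1
  exact (Complex.re_le_norm _).trans h1

end Vale.Agent.P372.H750
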