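import Vale.Agent.P372.H750.Key

/-! Nested blinding: a state without stuck subspaces has positive distillable key. -/

open Matrix Kronecker
open scoped ComplexOrder MatrixOrder

set_option linter.unusedSectionVars false

namespace Vale.Agent.P372.H750

variable {A B E n : Type} [Fintype A] [DecidableEq A] [Fintype B] [DecidableEq B]
  [Fintype E] [DecidableEq E] [Fintype n] [DecidableEq n]

/-- A matrix which projects onto a subspace. -/
theorem exists_proj (S : Submodule ℂ (n → ℂ)) :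
    ∃ P : Matrix n n ℂ, (∀ v, P *ᵥ v ∈ S) ∧ ∀ v ∈ S, P *ᵥ v = v := by
  obtain ⟨g, hg⟩ := LinearMap.exists_leftInverse_of_injective S.subtype S.ker_subtype
  refine ⟨LinearMap.toMatrix' (S.subtype ∘ₗ g), fun v => ?_, fun v hv => ?_⟩
  · rw [LinearMap.toMatrix'_mulVec]
    exact (g v).2
  · rw [LinearMap.toMatrix'_mulVec]
    have := LinearMap.congr_fun hg ⟨v, hv⟩
    simp only [LinearMap.comp_apply, Submodule.subtype_apply, LinearMap.id_apply] at this ⊢
    rw [this]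

theorem exists_bound (P : Matrix n n ℂ) : ∃ C : ℝ, 0 < C ∧
    ∀ f, qf (1 : Matrix n n ℂ) (P *ᵥ f) (P *ᵥ f) ≤ C * qf (1 : Matrix n n ℂ) f f := by
  have hH := posSemidef_conjTranspose_mul_self P
  have htr : 0 ≤ (Pᴴ * P).trace.re := re_trace_nonneg hH
  have hC : 0 < 1 + (Pᴴ * P).trace.re := by linarith
  refine ⟨1 + (Pᴴ * P).trace.re, hC, fun f => ?_⟩
  have h1 := T1.one_sub_smul_posSemidef hH (c := (1 + (Pᴴ * P).trace.re)⁻¹)
    (inv_pos.mpr hC).le (by
      rw [inv_mul_le_iff₀ hC]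
      linarith)
  have h2 := qf_nonneg h1 f
  rw [qf_sub, qf_smul] at h2
  rw [qf_mulVec_left, qf_mulVec_right, Matrix.mul_one]
  have h3 : (1 + (Pᴴ * P).trace.re)⁻¹ * qf (Pᴴ * P) f f ≤ qf (1 : Matrix n n ℂ) f f := by linarith
  rwa [inv_mul_le_iff₀ hC] at h3

theorem posSemidef_of_sub_one {M : Matrix n n ℂ} (hM : (M - 1).PosSemidef) : M.PosSemidef := by
  have := hM.add (PosSemidef.one (n := n) (R := ℂ))
  rwa [sub_add_cancel] at this

theorem kron_ge {M G : Matrix A A ℂ} {N H : Matrix B B ℂ} (hM : (M - 1).PosSemidef)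
    (hN : (N - 1).PosSemidef) (hG : G.PosSemidef) (hH : H.PosSemidef) {s : ℝ} (hs : 0 ≤ s)
    (u : A × B → ℂ) : qf (M ⊗ₖ N) u u + s * qf (G ⊗ₖ 1 + 1 ⊗ₖ H) u u ≤
      qf ((M + (s : ℂ) • G) ⊗ₖ (N + (s : ℂ) • H)) u u := by
  have e : (M + (s : ℂ) • G) ⊗ₖ (N + (s : ℂ) • H) = M ⊗ₖ N + (s : ℂ) • (G ⊗ₖ 1 + 1 ⊗ₖ H) +
      (s : ℂ) • (G ⊗ₖ (N - 1) + (M - 1) ⊗ₖ H) + ((s ^ 2 : ℝ) : ℂ) • (G ⊗ₖ H) := by
    ext p q
    simp only [Matrix.add_apply, Matrix.sub_apply, Matrix.smul_apply, kroneckerMap_apply,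
      smul_eq_mul]
    push_cast
    ring
  rw [e, qf_add _ (((s ^ 2 : ℝ) : ℂ) • _), qf_add _ ((s : ℂ) • _), qf_add _ ((s : ℂ) • _),
    qf_smul, qf_smul, qf_smul]
  have h1 := qf_nonneg ((hG.kronecker hN).add (hM.kronecker hH)) u
  have h2 := qf_nonneg (hG.kronecker hH) u
  have h3 := mul_nonneg hs h1
  have h4 := mul_nonneg (sq_nonneg s) h2
  linarith

theorem real_smul_eq {n : Type} (t : ℝ) (u : n → ℂ) : t • u = (t : ℂ) • u := by
  ext i
  simp

/-- The compactness step. -/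
theorem exists_large_form {m : Type} [Fintype m] [DecidableEq m] (S : Submodule ℂ (n → ℂ))
    (K : Matrix n n ℂ) (L : Matrix n m ℂ) (δ : ℝ) {Z : Matrix n n ℂ} (hZ : Z.PosSemidef)
    (hpos : ∀ u ∈ S, ∀ f : m → ℂ, u ≠ 0 ∨ f ≠ 0 → Z *ᵥ u = 0 →
      0 < 2 * qf K u u + 2 * qf L u f + δ * qf (1 : Matrix m m ℂ) f f) :
    ∃ s : ℝ, 0 ≤ s ∧ ∀ u ∈ S, ∀ f : m → ℂ,
      0 ≤ 2 * qf K u u + 2 * qf L u f + δ * qf (1 : Matrix m m ℂ) f f + s * (2 * qf Z u u) := by
  have c0 : IsClosed {p : (n → ℂ) × (m → ℂ) | p.1 ∈ S} := by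
    have h1 : IsClosed (S : Set (n → ℂ)) := S.closed_of_finiteDimensional
    exact h1.preimage continuous_fst
  have c1 : Continuous fun p : (n → ℂ) × (m → ℂ) => qf K p.1 p.1 :=
    (continuous_qf K).comp (continuous_fst.prodMk continuous_fst)
  have c2 : Continuous fun p : (n → ℂ) × (m → ℂ) => qf L p.1 p.2 := continuous_qf L
  have c3 : Continuous fun p : (n → ℂ) × (m → ℂ) => qf (1 : Matrix m m ℂ) p.2 p.2 :=
    (continuous_qf _).comp (continuous_snd.prodMk continuous_snd)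
  have c4 : Continuous fun p : (n → ℂ) × (m → ℂ) => qf Z p.1 p.1 :=
    (continuous_qf Z).comp (continuous_fst.prodMk continuous_fst)
  obtain ⟨s, hs, h⟩ := exists_large (V := (n → ℂ) × (m → ℂ)) (S := {p | p.1 ∈ S})
    (q := fun p => 2 * qf K p.1 p.1 + 2 * qf L p.1 p.2 + δ * qf (1 : Matrix m m ℂ) p.2 p.2)
    (h := fun p => 2 * qf Z p.1 p.1) c0
    (fun t p hp => by
      change t • p.1 ∈ S
      rw [real_smul_eq]
      exact S.smul_mem _ hp)
    (((continuous_const.mul c1).add (continuous_const.mul c2)).add (continuous_const.mul c3))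
    (continuous_const.mul c4)
    (fun t p => by
      simp only [Prod.smul_fst, Prod.smul_snd, qf_smul_left, qf_smul_right]
      ring)
    (fun t p => by
      simp only [Prod.smul_fst, qf_smul_left, qf_smul_right]
      ring)
    (fun p _ => by
      have := qf_nonneg hZ p.1
      change 0 ≤ 2 * qf Z p.1 p.1
      linarith)
    (fun p hp hne h0 => by
      have h1 : 2 * qf Z p.1 p.1 = 0 := h0
      refine hpos p.1 hp p.2 ?_ (qf_eq_zero hZ (by linarith))
      by_contra hcon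
      push Not at hcon
      exact hne (Prod.ext hcon.1 hcon.2))
  exact ⟨s, hs, fun u hu f => h (u, f) hu⟩

/-- The inductive claim. -/
theorem chain_claim {X : Matrix A A ℂ} {Y : Matrix B B ℂ} (hX : X.IsHermitian)
    (hY : Y.IsHermitian) (W : Submodule ℂ (A × B → ℂ))
    (hW : ∀ S : Submodule ℂ (A × B → ℂ), S ≤ W → S ≠ ⊥ → ∃ (G : Matrix A A ℂ)
      (H : Matrix B B ℂ), G.PosSemidef ∧ H.PosSemidef ∧
      (∀ u ∈ S, ∀ v ∈ S, star u ⬝ᵥ ((X ⊗ₖ H + G ⊗ₖ Y) *ᵥ v) = 0) ∧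
      ∃ v ∈ S, (G ⊗ₖ (1 : Matrix B B ℂ) + (1 : Matrix A A ℂ) ⊗ₖ H) *ᵥ v ≠ 0)
    (S : Submodule ℂ (A × B → ℂ)) : S ≤ W → ∀ δ : ℝ, 0 < δ →
    ∃ (M : Matrix A A ℂ) (N : Matrix B B ℂ) (L : Matrix (A × B) (A × B) ℂ),
      (M - 1).PosSemidef ∧ (N - 1).PosSemidef ∧
      (∀ u ∈ S, ∀ v ∈ S, qf L u v + qf L v u = qf (X ⊗ₖ N + M ⊗ₖ Y) u v +
        qf (X ⊗ₖ N + M ⊗ₖ Y) v u) ∧
      (∀ u ∈ S, ∀ f, 0 ≤ 2 * qf (M ⊗ₖ N) u u + 2 * qf L u f +
        δ * qf (1 : Matrix (A × B) (A × B) ℂ) f f) := by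
  induction S using WellFoundedLT.induction with
  | ind S ih =>
  intro hSW δ hδ
  by_cases hS0 : S = ⊥
  · refine ⟨1, 1, 0, ?_, ?_, ?_, ?_⟩
    · rw [sub_self]; exact PosSemidef.zero
    · rw [sub_self]; exact PosSemidef.zero
    · intro u hu v hv
      rw [hS0, Submodule.mem_bot] at hu hv
      rw [hu, hv]
      simp only [qf_zero_left]
    · intro u hu f
      rw [hS0, Submodule.mem_bot] at hu
      rw [hu, qf_zero_left, qf_zero_left]
      have := qf_nonneg (PosSemidef.one (n := A × B) (R := ℂ)) f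
      positivity
  · obtain ⟨G, H, hG, hH, hGH, v₀, hv₀, hne⟩ := hW S hSW hS0
    have hZ : (G ⊗ₖ (1 : Matrix B B ℂ) + (1 : Matrix A A ℂ) ⊗ₖ H).PosSemidef :=
      (hG.kronecker PosSemidef.one).add (PosSemidef.one.kronecker hH)
    set Z := G ⊗ₖ (1 : Matrix B B ℂ) + (1 : Matrix A A ℂ) ⊗ₖ H with hZdef
    set S' : Submodule ℂ (A × B → ℂ) := S ⊓ LinearMap.ker Z.mulVecLin with hS'
    have hlt : S' < S := by
      refine lt_of_le_of_ne inf_le_left fun h => hne ?_
      have : v₀ ∈ S' := by rw [h]; exact hv₀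
      exact (Submodule.mem_inf.mp this).2
    obtain ⟨P, hP1, hP2⟩ := exists_proj S'
    obtain ⟨C, hC, hPC⟩ := exists_bound P
    obtain ⟨M, N, L', hM, hN, hi, hii⟩ := ih S' hlt (inf_le_left.trans hSW) (δ / (2 * C))
      (by positivity)
    set Δ := X ⊗ₖ N + M ⊗ₖ Y with hΔ
    have hΔh : Δ.IsHermitian := by
      rw [IsHermitian, hΔ, conjTranspose_add, conjTranspose_kronecker, conjTranspose_kronecker,
        hX.eq, hY.eq, (posSemidef_of_sub_one hM).1.eq, (posSemidef_of_sub_one hN).1.eq]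
    set L : Matrix (A × B) (A × B) ℂ := Pᴴ * L' * P + ((2 : ℝ) : ℂ) • ((1 - P)ᴴ * Δ * P) +
      (1 - P)ᴴ * Δ * (1 - P) with hL
    have hLq : ∀ u v, qf L u v = qf L' (P *ᵥ u) (P *ᵥ v) + 2 * qf Δ (u - P *ᵥ u) (P *ᵥ v) +
        qf Δ (u - P *ᵥ u) (v - P *ᵥ v) := by
      intro u v
      have e : ∀ w : A × B → ℂ, w - P *ᵥ w = (1 - P) *ᵥ w := by
        intro w
        rw [sub_mulVec, one_mulVec]
      rw [e, e, hL, qf_add, qf_add, qf_smul]
      simp only [qf_mulVec_left, qf_mulVec_right, Matrix.mul_assoc]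
    clear_value L
    -- the compactness step
    obtain ⟨s, hs, hsq⟩ := exists_large_form S (M ⊗ₖ N) L δ hZ (by
        intro u hu' f hne' hZu
        have huS' : u ∈ S' := Submodule.mem_inf.mpr ⟨hu', hZu⟩
        have hPu := hP2 u huS'
        have hLu : qf L u f = qf L' u (P *ᵥ f) := by
          rw [hLq, hPu, sub_self, qf_zero_left, qf_zero_left]
          ring
        rw [hLu]
        have h1 := hii u huS' (P *ᵥ f)
        have h2 : δ / (2 * C) * qf (1 : Matrix (A × B) (A × B) ℂ) (P *ᵥ f) (P *ᵥ f) ≤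
            δ / 2 * qf (1 : Matrix (A × B) (A × B) ℂ) f f := by
          calc δ / (2 * C) * qf (1 : Matrix (A × B) (A × B) ℂ) (P *ᵥ f) (P *ᵥ f) ≤
              δ / (2 * C) * (C * qf (1 : Matrix (A × B) (A × B) ℂ) f f) :=
                mul_le_mul_of_nonneg_left (hPC f) (by positivity)
            _ = δ / 2 * qf (1 : Matrix (A × B) (A × B) ℂ) f f := by
                field_simp
        by_cases hf : f = 0
        · subst hf
          have hu0 : u ≠ 0 := by
            rcases hne' with h | h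
            · exact h
            · exact absurd rfl h
          rw [mulVec_zero, qf_zero_right, qf_zero_right, mul_zero, mul_zero, add_zero, add_zero]
          have h3 := qf_nonneg (kron_sub_one hM hN) u
          rw [qf_sub] at h3
          have h4 := qf_one_pos hu0
          linarith
        · have h4 := mul_pos (half_pos hδ) (qf_one_pos hf)
          linarith)
    have hzero : ∀ u ∈ S, ∀ v ∈ S, qf (X ⊗ₖ H + G ⊗ₖ Y) u v = 0 := by
      intro u hu v hv
      rw [qf, hGH u hu v hv, Complex.zero_re]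
    have hsplit : X ⊗ₖ (N + (s : ℂ) • H) + (M + (s : ℂ) • G) ⊗ₖ Y =
        Δ + (s : ℂ) • (X ⊗ₖ H + G ⊗ₖ Y) := by
      ext p q
      simp only [hΔ, Matrix.add_apply, Matrix.smul_apply, kroneckerMap_apply, smul_eq_mul]
      ring
    refine ⟨M + (s : ℂ) • G, N + (s : ℂ) • H, L, ?_, ?_, ?_, ?_⟩
    · have e : M + (s : ℂ) • G - 1 = (M - 1) + (s : ℂ) • G := by abel
      rw [e]
      exact hM.add (hG.smul (by exact_mod_cast hs))
    · have e : N + (s : ℂ) • H - 1 = (N - 1) + (s : ℂ) • H := by abel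
      rw [e]
      exact hN.add (hH.smul (by exact_mod_cast hs))
    · intro u hu v hv
      have h1 := hi (P *ᵥ u) (hP1 u) (P *ᵥ v) (hP1 v)
      have s1 := qf_herm hΔh v u
      have s2 := qf_herm hΔh (P *ᵥ v) u
      have s3 := qf_herm hΔh v (P *ᵥ u)
      have s4 := qf_herm hΔh (P *ᵥ v) (P *ᵥ u)
      clear_value Δ
      rw [hsplit, qf_add, qf_add, qf_smul, qf_smul, hzero u hu v hv, hzero v hv u hu, mul_zero,
        add_zero, add_zero, hLq, hLq]
      simp only [qf_sub_left, qf_sub_right]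
      linarith
    · intro u hu f
      have h1 := hsq u hu f
      have h2 := kron_ge hM hN hG hH hs u
      rw [← hZdef] at h2
      linarith

end Vale.Agent.P372.H750
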