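import Vale.Agent.P372.H750.Chain

/-! The nested blinding criterion. -/

open Matrix Kronecker
open scoped ComplexOrder MatrixOrder

set_option linter.unusedSectionVars false

namespace Vale.Agent.P372.H750

variable {A B E n : Type} [Fintype A] [DecidableEq A] [Fintype B] [DecidableEq B]
  [Fintype E] [DecidableEq E] [Fintype n] [DecidableEq n]

/-- Each nonzero subspace `S` of `W` has positive semidefinite operators `G`, `H` such that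
`⟨u|X ⊗ H + G ⊗ Y|v⟩ = 0` on `S`, but `G ⊗ 1 + 1 ⊗ H` does not vanish on `S`. -/
def NoStuck (W : Submodule ℂ (A × B → ℂ)) (X : Matrix A A ℂ) (Y : Matrix B B ℂ) : Prop :=
  ∀ S : Submodule ℂ (A × B → ℂ), S ≤ W → S ≠ ⊥ → ∃ (G : Matrix A A ℂ) (H : Matrix B B ℂ),
    G.PosSemidef ∧ H.PosSemidef ∧
    (∀ u ∈ S, ∀ v ∈ S, star u ⬝ᵥ ((X ⊗ₖ H + G ⊗ₖ Y) *ᵥ v) = 0) ∧
    ∃ v ∈ S, (G ⊗ₖ (1 : Matrix B B ℂ) + (1 : Matrix A A ℂ) ⊗ₖ H) *ᵥ v ≠ 0

/-- The nested blinding criterion. -/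
theorem pos_of_noStuck (Ψ : Matrix (A × B) E ℂ) (hΨ : (Ψ * Ψᴴ).trace = 1) {X : Matrix A A ℂ}
    {Y : Matrix B B ℂ} (hX : X.IsHermitian) (hY : Y.IsHermitian) (hc : 0 < tq Ψ (X ⊗ₖ Y))
    (hW : NoStuck (LinearMap.range Ψ.mulVecLin) X Y) : 0 < distillableKey Ψ := by
  obtain ⟨M, N, L, hM, hN, h1, h2⟩ := chain_claim hX hY _ hW _ le_rfl (tq Ψ (X ⊗ₖ Y) / 2)
    (half_pos hc)
  have hmem : ∀ e : E → ℂ, Ψ *ᵥ e ∈ LinearMap.range Ψ.mulVecLin := fun e => ⟨e, rfl⟩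
  have hΔh : (X ⊗ₖ N + M ⊗ₖ Y).IsHermitian := by
    rw [IsHermitian, conjTranspose_add, conjTranspose_kronecker, conjTranspose_kronecker,
      hX.eq, hY.eq, (posSemidef_of_sub_one hM).1.eq, (posSemidef_of_sub_one hN).1.eq]
  refine pos_of_form Ψ hΨ hX hY hM hN (L := L) (δ := tq Ψ (X ⊗ₖ Y) / 2) (by linarith) hc
    (fun e f => ?_) (fun e f => h2 _ (hmem e) f)
  rw [h1 _ (hmem e) _ (hmem f), qf_herm hΔh (Ψ *ᵥ f)]
  ring

theorem tq_eq (Ψ : Matrix n E ℂ) (Z : Matrix n n ℂ) : tq Ψ Z = (Ψ * Ψᴴ * Z).trace.re := by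
  rw [tq, Matrix.mul_assoc, trace_mul_comm, Matrix.mul_assoc, trace_mul_comm, Matrix.mul_assoc]

theorem range_mul_conjTranspose (Ψ : Matrix n E ℂ) :
    LinearMap.range Ψ.mulVecLin ≤ LinearMap.range (Ψ * Ψᴴ).mulVecLin := by
  have h1 : Module.finrank ℂ (LinearMap.range (Ψ * Ψᴴ).mulVecLin) =
      Module.finrank ℂ (LinearMap.range Ψ.mulVecLin) := rank_self_mul_conjTranspose Ψ
  have h2 : LinearMap.range (Ψ * Ψᴴ).mulVecLin ≤ LinearMap.range Ψ.mulVecLin := by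
    rintro _ ⟨v, rfl⟩
    exact ⟨Ψᴴ *ᵥ v, by simp only [mulVecLin_apply, mulVec_mulVec]⟩
  exact (Submodule.eq_of_le_of_finrank_eq h2 h1).ge

/-- The criterion for a number of copies. -/
theorem keyPos_of_noStuck (ρ : Matrix (A × B) (A × B) ℂ) (hρ : ρ.trace = 1) {m : ℕ}
    (hm : 0 < m) {X : Matrix (Fin m → A) (Fin m → A) ℂ} {Y : Matrix (Fin m → B) (Fin m → B) ℂ}
    (hX : X.IsHermitian) (hY : Y.IsHermitian) (hc : 0 < (tpow m ρ * (X ⊗ₖ Y)).trace.re)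
    (hW : NoStuck (LinearMap.range (tpow m ρ).mulVecLin) X Y) : KeyPos ρ := by
  intro E _ _ Ψ hΨ
  have htr : (Ψ * Ψᴴ).trace = 1 := by rw [hΨ, hρ]
  have hcop : copies m Ψ * (copies m Ψ)ᴴ = tpow m ρ := by rw [copies_mul, hΨ]
  have h1 : 0 < distillableKey (copies m Ψ) := by
    refine pos_of_noStuck _ (trace_copies m Ψ htr) hX hY ?_ ?_
    · rw [tq_eq, hcop]
      exact hc
    · intro S hS
      have := range_mul_conjTranspose (copies m Ψ)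
      rw [hcop] at this
      exact hW S (hS.trans this)
  rw [distillableKey_eq_KD] at h1 ⊢
  exact KD_pos_of_copies hm Ψ htr h1

end Vale.Agent.P372.H750
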