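import Vale.Agent.P372.Bdl.B1

/-! Real parts of sesquilinear forms, and a compactness lemma for quadratic forms. -/

open Matrix Kronecker
open scoped ComplexOrder MatrixOrder

set_option linter.unusedSectionVars false

namespace Vale.Agent.P372.H750

variable {n m : Type} [Fintype n] [Fintype m]

/-- The real part of `⟨u|Z|v⟩`. -/
def qf (Z : Matrix m n ℂ) (u : m → ℂ) (v : n → ℂ) : ℝ := (star u ⬝ᵥ (Z *ᵥ v)).re

theorem qf_add_left (Z : Matrix m n ℂ) (u u' : m → ℂ) (v : n → ℂ) :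
    qf Z (u + u') v = qf Z u v + qf Z u' v := by
  rw [qf, star_add, add_dotProduct, Complex.add_re]; rfl

theorem qf_add_right (Z : Matrix m n ℂ) (u : m → ℂ) (v v' : n → ℂ) :
    qf Z u (v + v') = qf Z u v + qf Z u v' := by
  rw [qf, mulVec_add, dotProduct_add, Complex.add_re]; rfl

theorem qf_smul_left (c : ℝ) (Z : Matrix m n ℂ) (u : m → ℂ) (v : n → ℂ) :
    qf Z (c • u) v = c * qf Z u v := by
  have : star (c • u) = (c : ℂ) • star u := by
    ext i
    simp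
  rw [qf, this, smul_dotProduct, smul_eq_mul, Complex.re_ofReal_mul]; rfl

theorem qf_smul_right (c : ℝ) (Z : Matrix m n ℂ) (u : m → ℂ) (v : n → ℂ) :
    qf Z u (c • v) = c * qf Z u v := by
  have : c • v = (c : ℂ) • v := by
    ext i
    simp
  rw [qf, this, mulVec_smul, dotProduct_smul, smul_eq_mul, Complex.re_ofReal_mul]; rfl

theorem qf_neg_left (Z : Matrix m n ℂ) (u : m → ℂ) (v : n → ℂ) : qf Z (-u) v = - qf Z u v := by
  rw [qf, star_neg, neg_dotProduct, Complex.neg_re]; rfl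

theorem qf_neg_right (Z : Matrix m n ℂ) (u : m → ℂ) (v : n → ℂ) : qf Z u (-v) = - qf Z u v := by
  rw [qf, mulVec_neg, dotProduct_neg, Complex.neg_re]; rfl

theorem qf_sub_left (Z : Matrix m n ℂ) (u u' : m → ℂ) (v : n → ℂ) :
    qf Z (u - u') v = qf Z u v - qf Z u' v := by
  rw [sub_eq_add_neg, qf_add_left, qf_neg_left, sub_eq_add_neg]

theorem qf_sub_right (Z : Matrix m n ℂ) (u : m → ℂ) (v v' : n → ℂ) :
    qf Z u (v - v') = qf Z u v - qf Z u v' := by
  rw [sub_eq_add_neg, qf_add_right, qf_neg_right, sub_eq_add_neg]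

theorem qf_add (Z Z' : Matrix m n ℂ) (u : m → ℂ) (v : n → ℂ) :
    qf (Z + Z') u v = qf Z u v + qf Z' u v := by
  rw [qf, add_mulVec, dotProduct_add, Complex.add_re]; rfl

theorem qf_sub (Z Z' : Matrix m n ℂ) (u : m → ℂ) (v : n → ℂ) :
    qf (Z - Z') u v = qf Z u v - qf Z' u v := by
  rw [qf, sub_mulVec, dotProduct_sub, Complex.sub_re]; rfl

theorem qf_smul (c : ℝ) (Z : Matrix m n ℂ) (u : m → ℂ) (v : n → ℂ) :
    qf ((c : ℂ) • Z) u v = c * qf Z u v := by
  rw [qf, smul_mulVec, dotProduct_smul, smul_eq_mul, Complex.re_ofReal_mul]; rfl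

theorem qf_zero_left (Z : Matrix m n ℂ) (v : n → ℂ) : qf Z 0 v = 0 := by
  rw [qf, star_zero, zero_dotProduct, Complex.zero_re]

theorem qf_zero_right (Z : Matrix m n ℂ) (u : m → ℂ) : qf Z u 0 = 0 := by
  rw [qf, mulVec_zero, dotProduct_zero, Complex.zero_re]

theorem qf_conjTranspose (Z : Matrix m n ℂ) (u : m → ℂ) (v : n → ℂ) : qf Zᴴ v u = qf Z u v := by
  have h : star (star v ⬝ᵥ (Zᴴ *ᵥ u)) = star u ⬝ᵥ (Z *ᵥ v) := by
    rw [← star_dotProduct, star_mulVec, conjTranspose_conjTranspose, ← dotProduct_mulVec]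
  rw [qf, qf, ← h, RCLike.star_def, Complex.conj_re]

theorem qf_herm {Z : Matrix n n ℂ} (h : Z.IsHermitian) (u v : n → ℂ) : qf Z u v = qf Z v u := by
  rw [← qf_conjTranspose, h.eq]

theorem qf_nonneg {Z : Matrix n n ℂ} (h : Z.PosSemidef) (u : n → ℂ) : 0 ≤ qf Z u u :=
  (Complex.le_def.mp (h.dotProduct_mulVec_nonneg u)).1

theorem qf_eq_zero {Z : Matrix n n ℂ} (h : Z.PosSemidef) {u : n → ℂ} (h0 : qf Z u u = 0) :
    Z *ᵥ u = 0 := by
  have h1 := Complex.le_def.mp (h.dotProduct_mulVec_nonneg u)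
  exact (h.dotProduct_mulVec_zero_iff u).mp (Complex.ext h0 h1.2.symm)

theorem qf_mulVec_left {k : Type} [Fintype k] (P : Matrix m k ℂ) (Z : Matrix m n ℂ) (u : k → ℂ)
    (v : n → ℂ) : qf Z (P *ᵥ u) v = qf (Pᴴ * Z) u v := by
  rw [qf, qf, star_mulVec, ← dotProduct_mulVec, mulVec_mulVec]

theorem qf_mulVec_right {k : Type} [Fintype k] (P : Matrix n k ℂ) (Z : Matrix m n ℂ) (u : m → ℂ)
    (v : k → ℂ) : qf Z u (P *ᵥ v) = qf (Z * P) u v := by
  rw [qf, qf, mulVec_mulVec]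

theorem qf_one_pos [DecidableEq n] {u : n → ℂ} (h : u ≠ 0) :
    0 < qf (1 : Matrix n n ℂ) u u := by
  refine lt_of_le_of_ne (qf_nonneg PosSemidef.one u) fun h0 => h ?_
  have := qf_eq_zero PosSemidef.one h0.symm
  rwa [one_mulVec] at this

theorem continuous_qf (Z : Matrix m n ℂ) : Continuous fun p : (m → ℂ) × (n → ℂ) =>
    qf Z p.1 p.2 := by
  simp only [qf, dotProduct, mulVec]
  fun_prop

/-- A matrix is Hermitian positive semidefinite if it is so as a real quadratic form. -/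
theorem posSemidef_of_qf {Z : Matrix n n ℂ} (hZ : Z.IsHermitian) (h : ∀ u, 0 ≤ qf Z u u) :
    Z.PosSemidef := by
  refine PosSemidef.of_dotProduct_mulVec_nonneg hZ fun u => Complex.le_def.mpr ⟨h u, ?_⟩
  have h1 : star (star u ⬝ᵥ (Z *ᵥ u)) = star u ⬝ᵥ (Z *ᵥ u) := by
    rw [← star_dotProduct, star_mulVec, hZ.eq, ← dotProduct_mulVec]
  exact (Complex.conj_eq_iff_im.mp h1).symm

/-- If a quadratic form is positive on the zeros of a nonnegative one, then it becomes nonnegative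
after adding a large multiple of the latter. -/
theorem exists_large {V : Type} [NormedAddCommGroup V] [NormedSpace ℝ V] [FiniteDimensional ℝ V]
    {S : Set V} (hS : IsClosed S) (hSs : ∀ (t : ℝ), ∀ v ∈ S, t • v ∈ S) {q h : V → ℝ}
    (hq : Continuous q) (hh : Continuous h) (hq2 : ∀ (t : ℝ) v, q (t • v) = t ^ 2 * q v)
    (hh2 : ∀ (t : ℝ) v, h (t • v) = t ^ 2 * h v) (h0 : ∀ v ∈ S, 0 ≤ h v)
    (hpos : ∀ v ∈ S, v ≠ 0 → h v = 0 → 0 < q v) :
    ∃ s : ℝ, 0 ≤ s ∧ ∀ v ∈ S, 0 ≤ q v + s * h v := by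
  by_contra hcon
  push Not at hcon
  have hv : ∀ k : ℕ, ∃ v ∈ S ∩ Metric.sphere (0 : V) 1, q v + k * h v ≤ 0 := by
    intro k
    obtain ⟨v, hvS, hv⟩ := hcon k (Nat.cast_nonneg k)
    have hv0 : v ≠ 0 := by
      rintro rfl
      have e1 := hq2 0 0
      have e2 := hh2 0 0
      rw [smul_zero] at e1 e2
      rw [e1, e2] at hv
      norm_num at hv
    have hn : 0 < ‖v‖ := norm_pos_iff.mpr hv0
    refine ⟨‖v‖⁻¹ • v, ⟨hSs _ v hvS, ?_⟩, ?_⟩
    · rw [mem_sphere_zero_iff_norm, norm_smul, norm_inv, norm_norm, inv_mul_cancel₀ hn.ne']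
    · rw [hq2, hh2]
      have : ‖v‖⁻¹ ^ 2 * q v + k * (‖v‖⁻¹ ^ 2 * h v) = ‖v‖⁻¹ ^ 2 * (q v + k * h v) := by ring
      rw [this]
      exact mul_nonpos_of_nonneg_of_nonpos (by positivity) hv.le
  have : ProperSpace V := FiniteDimensional.proper ℝ V
  have hK : IsCompact (S ∩ Metric.sphere (0 : V) 1) := (isCompact_sphere (0 : V) 1).inter_left hS
  have hc : ∀ k : ℕ, IsClosed {v : V | q v + k * h v ≤ 0} := fun k =>
    isClosed_le (hq.add (continuous_const.mul hh)) continuous_const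
  obtain ⟨v, hv'⟩ := IsCompact.nonempty_iInter_of_sequence_nonempty_isCompact_isClosed
    (fun k : ℕ => (S ∩ Metric.sphere (0 : V) 1) ∩ {v : V | q v + k * h v ≤ 0})
    (fun k v hv => ⟨hv.1, by
      have h1 := h0 v hv.1.1
      have h2 : q v + ((k + 1 : ℕ) : ℝ) * h v ≤ 0 := hv.2
      push_cast at h2
      change q v + k * h v ≤ 0
      linarith⟩)
    (fun k => by
      obtain ⟨v, h1, h2⟩ := hv k
      exact ⟨v, h1, h2⟩)
    (hK.inter_right (hc 0)) (fun k => (hK.inter_right (hc k)).isClosed)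
  rw [Set.mem_iInter] at hv'
  have hvS : v ∈ S := (hv' 0).1.1
  have hvn : ‖v‖ = 1 := mem_sphere_zero_iff_norm.mp (hv' 0).1.2
  have hv0 : v ≠ 0 := by
    rintro rfl
    rw [norm_zero] at hvn
    norm_num at hvn
  have hle : ∀ k : ℕ, q v + k * h v ≤ 0 := fun k => (hv' k).2
  have hh0 : h v = 0 := by
    by_contra hne
    have hp : 0 < h v := lt_of_le_of_ne (h0 v hvS) (Ne.symm hne)
    obtain ⟨k, hk⟩ := exists_nat_gt (- q v / h v)
    rw [div_lt_iff₀ hp] at hk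
    linarith [hle k]
  have h1 := hpos v hvS hv0 hh0
  have h2 := hle 0
  rw [Nat.cast_zero, zero_mul, add_zero] at h2
  linarith

end Vale.Agent.P372.H750
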