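import Vale.Agent.P372.H750.Upb

/-! States on `ℂ^d ⊗ ℂ^b`, `b ≤ 4`, with an unextendible set of product vectors in the kernel. -/

open Matrix Kronecker
open scoped ComplexOrder MatrixOrder

set_option linter.unusedSectionVars false

namespace Vale.Agent.P372.H750

open UPB

variable {A B E : Type} [Fintype A] [DecidableEq A] [Fintype B] [DecidableEq B]
  [Fintype E] [DecidableEq E]

theorem conj_mulVec_zero {Ψ : Matrix (A × B) E ℂ} {a : A → ℂ} {b : B → ℂ}
    (h : Ψᴴ *ᵥ prodVec a b = 0) (e : E → ℂ) : ip (prodVec a b) (Ψ *ᵥ e) = 0 := by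
  rw [ip_conj_mulVec, h, ip_zero_left]

/-- Two product vectors `a₀ ⊗ b₀`, `a ⊗ b` in the kernel, `b₀`, `b` independent, such that
`⟨a|ρ|a₀⟩` does not vanish on a vector `x` orthogonal to `b₀`, `b`; no product vector in the
range. -/
theorem pos_of_pair (hB : Fintype.card B ≤ 4) (Ψ : Matrix (A × B) E ℂ)
    (hΨ : (Ψ * Ψᴴ).trace = 1) {a₀ a : A → ℂ} {b₀ b x : B → ℂ} (h0 : Ψᴴ *ᵥ prodVec a₀ b₀ = 0)
    (h1 : Ψᴴ *ᵥ prodVec a b = 0) (hbb : LinearIndependent ℂ ![b₀, b]) (hx0 : ip b₀ x = 0)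
    (hx1 : ip b x = 0)
    (hces : ∀ (v : E → ℂ) (α : A → ℂ) (β : B → ℂ), Ψ *ᵥ v = prodVec α β → ip b₀ β = 0 →
      ip b β = 0 → Ψ *ᵥ v = 0)
    (hne : ip (prodVec a x) ((Ψ * Ψᴴ) *ᵥ prodVec a₀ x) ≠ 0) : 0 < distillableKey Ψ := by
  obtain ⟨p, hp⟩ : ∃ p, p = ip (prodVec a x) ((Ψ * Ψᴴ) *ᵥ prodVec a₀ x) := ⟨_, rfl⟩
  rw [← hp] at hne
  have hx : x ≠ 0 := by
    rintro rfl
    apply hne
    rw [hp]
    have : prodVec a (0 : B → ℂ) = 0 := by
      ext q
      simp only [prodVec, Pi.zero_apply, mul_zero]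
    rw [this, ip_zero_left]
  have hp' : ip (prodVec a₀ x) ((Ψ * Ψᴴ) *ᵥ prodVec a x) = star p := by
    rw [hp]
    exact (star_ip_mulVec (by rw [conjTranspose_mul, conjTranspose_conjTranspose]) _ _).symm
  set X : Matrix A A ℂ := star p • vecMulVec a₀ (star a) + p • vecMulVec a (star a₀) with hXdef
  set Y : Matrix B B ℂ := vecMulVec x (star x) with hYdef
  have hX : X.IsHermitian := by
    rw [IsHermitian, hXdef, conjTranspose_add, conjTranspose_smul, conjTranspose_smul,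
      conjTranspose_vecMulVec, conjTranspose_vecMulVec, star_star, star_star, star_star, add_comm]
  have hY : Y.IsHermitian := (posSemidef_vmv x).1
  -- expectation of a product of rank one operators
  have htq : ∀ (c c' : A → ℂ), (Ψ * Ψᴴ * (vecMulVec c (star c') ⊗ₖ Y)).trace =
      ip (prodVec c' x) ((Ψ * Ψᴴ) *ᵥ prodVec c x) := by
    intro c c'
    rw [hYdef, vmv_kronecker, mul_vecMulVec, trace_vecMulVec, dotProduct_comm]
    rfl
  refine pos_of_noStuck Ψ hΨ hX hY ?_ ?_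
  · rw [tq_eq, hXdef, add_kronecker, smul_kronecker, smul_kronecker, Matrix.mul_add,
      Matrix.mul_smul, Matrix.mul_smul, trace_add, trace_smul, trace_smul, htq, htq, ← hp, hp']
    simp only [smul_eq_mul, RCLike.star_def]
    rw [Complex.conj_mul', Complex.mul_conj', ← two_mul]
    have h2 : (0 : ℝ) < 2 * ‖p‖ ^ 2 := by
      have := norm_pos_iff.mpr hne
      positivity
    have h3 : (2 * (‖p‖ : ℂ) ^ 2).re = 2 * ‖p‖ ^ 2 := by
      rw [← Complex.ofReal_pow, Complex.re_mul_ofReal]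
      norm_num
    rw [h3]
    exact h2
  · intro S hSW hS
    -- vectors of `S` are in the range
    have hmem : ∀ v ∈ S, ∃ e, Ψ *ᵥ e = v := fun v hv => hSW hv
    have hk0 : ∀ v ∈ S, ip (prodVec a₀ b₀) v = 0 := by
      intro v hv
      obtain ⟨e, rfl⟩ := hmem v hv
      exact conj_mulVec_zero h0 e
    have hk1 : ∀ v ∈ S, ip (prodVec a b) v = 0 := by
      intro v hv
      obtain ⟨e, rfl⟩ := hmem v hv
      exact conj_mulVec_zero h1 e
    have hH : (vecMulVec b₀ (star b₀) + vecMulVec b (star b)).PosSemidef :=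
      (posSemidef_vmv b₀).add (posSemidef_vmv b)
    by_cases hH0 : ∃ v ∈ S, ((0 : Matrix A A ℂ) ⊗ₖ (1 : Matrix B B ℂ) + (1 : Matrix A A ℂ) ⊗ₖ
        (vecMulVec b₀ (star b₀) + vecMulVec b (star b))) *ᵥ v ≠ 0
    · refine ⟨0, _, PosSemidef.zero, hH, fun u hu v hv => ?_, hH0⟩
      have e : X ⊗ₖ (vecMulVec b₀ (star b₀) + vecMulVec b (star b)) + (0 : Matrix A A ℂ) ⊗ₖ Y =
          star p • (vecMulVec a₀ (star a) ⊗ₖ vecMulVec b₀ (star b₀)) +
          star p • (vecMulVec a₀ (star a) ⊗ₖ vecMulVec b (star b)) +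
          p • (vecMulVec a (star a₀) ⊗ₖ vecMulVec b₀ (star b₀)) +
          p • (vecMulVec a (star a₀) ⊗ₖ vecMulVec b (star b)) := by
        rw [hXdef, zero_kronecker, add_zero, add_kronecker, smul_kronecker, smul_kronecker,
          kronecker_add, kronecker_add, smul_add, smul_add, ← add_assoc]
      rw [e, add_mulVec, add_mulVec, add_mulVec, smul_mulVec, smul_mulVec, smul_mulVec,
        smul_mulVec, dotProduct_add, dotProduct_add, dotProduct_add, dotProduct_smul,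
        dotProduct_smul, dotProduct_smul, dotProduct_smul, form_vmv, form_vmv, form_vmv, form_vmv,
        ip_comm_zero (hk0 u hu), ip_comm_zero (hk1 u hu), hk0 v hv, hk1 v hv]
      simp only [mul_zero, zero_mul, smul_zero, add_zero]
    · push Not at hH0
      have hc : ∀ v ∈ S, ctr b₀ v = 0 ∧ ctr b v = 0 := by
        intro v hv
        have h2 := hH0 v hv
        rw [zero_kronecker, zero_add] at h2
        have h3 : star v ⬝ᵥ (((1 : Matrix A A ℂ) ⊗ₖ (vecMulVec b₀ (star b₀) +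
            vecMulVec b (star b))) *ᵥ v) = 0 := by rw [h2, dotProduct_zero]
        rw [kronecker_add, add_mulVec, dotProduct_add, quad_fiber, quad_fiber,
          ← Complex.ofReal_add, Complex.ofReal_eq_zero] at h3
        have e1 : ∀ c : B → ℂ, 0 ≤ ∑ y, ‖ip c (fun z => v (y, z))‖ ^ 2 := fun c =>
          Finset.sum_nonneg fun _ _ => sq_nonneg _
        have e2 := (add_eq_zero_iff_of_nonneg (e1 b₀) (e1 b)).mp h3
        have e3 : ∀ c : B → ℂ, ∑ y, ‖ip c (fun z => v (y, z))‖ ^ 2 = 0 → ctr c v = 0 := by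
          intro c hc
          ext y
          have h4 := (Finset.sum_eq_zero_iff_of_nonneg (fun _ _ => sq_nonneg _)).mp hc y
            (Finset.mem_univ y)
          rw [ctr_apply]
          exact norm_eq_zero.mp (pow_eq_zero_iff two_ne_zero |>.mp h4)
        exact ⟨e3 _ e2.1, e3 _ e2.2⟩
      obtain ⟨α, y, hα, v, hv, hαv⟩ := exists_heavy hB hS (fun α β hαβ hβ0 hβ1 => by
        obtain ⟨e, he⟩ := hmem _ hαβ
        rw [← he]
        exact hces e α β he hβ0 hβ1) hbb hx hx0 hx1 (fun v hv => (hc v hv).1)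
        (fun v hv => (hc v hv).2)
      refine ⟨vecMulVec α (star α), 0, posSemidef_vmv α, PosSemidef.zero, fun u hu w hw => ?_,
        v, hv, vmv_one_mulVec_ne hαv⟩
      rw [kronecker_zero, zero_add, hYdef, form_vmv, hα w hw, zero_mul]

/-- The pair criterion. -/
theorem pos_of_pair' (hB : Fintype.card B ≤ 4) (Ψ : Matrix (A × B) E ℂ)
    (hΨ : (Ψ * Ψᴴ).trace = 1) {a₀ a : A → ℂ} {b₀ b y z : B → ℂ}
    (hk0 : Ψᴴ *ᵥ prodVec a₀ b₀ = 0) (hk : Ψᴴ *ᵥ prodVec a b = 0)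
    (hbb : LinearIndependent ℂ ![b₀, b])
    (hces : ∀ (v : E → ℂ) (α : A → ℂ) (β : B → ℂ), Ψ *ᵥ v = prodVec α β → ip b₀ β = 0 →
      ip b β = 0 → Ψ *ᵥ v = 0)
    (hne : ip (prodVec a y) ((Ψ * Ψᴴ) *ᵥ prodVec a₀ z) ≠ 0) : 0 < distillableKey Ψ := by
  -- the case of a negative partial transpose
  by_cases hpp : ∃ (a a' : A → ℂ) (b b' : B → ℂ), Ψᴴ *ᵥ prodVec a b = 0 ∧
      ip (prodVec a' b) ((Ψ * Ψᴴ) *ᵥ prodVec a b') ≠ 0
  · obtain ⟨a, a', b, b', h1, h2⟩ := hpp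
    exact pos_of_entry Ψ hΨ h1 h2
  push Not at hpp
  have hherm : (Ψ * Ψᴴ)ᴴ = Ψ * Ψᴴ := by rw [conjTranspose_mul, conjTranspose_conjTranspose]
  have hpp' : ∀ (a a' : A → ℂ) (b b' : B → ℂ), Ψᴴ *ᵥ prodVec a b = 0 →
      ip (prodVec a b') ((Ψ * Ψᴴ) *ᵥ prodVec a' b) = 0 := by
    intro a a' b b' h
    rw [← star_ip_mulVec hherm, hpp a a' b b' h, star_zero]
  -- polarization
  have hsq : ∃ x : B → ℂ, ip (prodVec a x) ((Ψ * Ψᴴ) *ᵥ prodVec a₀ x) ≠ 0 := by
    by_contra hcon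
    push Not at hcon
    have c1 := hcon (y + z)
    have c2 := hcon (y + Complex.I • z)
    rw [prodVec_add_right, prodVec_add_right, mulVec_add, ip_add_left, ip_add_right, ip_add_right,
      hcon y, hcon z, zero_add, add_zero] at c1
    rw [prodVec_add_right, prodVec_add_right, mulVec_add, ip_add_left, ip_add_right, ip_add_right,
      prodVec_smul_right, prodVec_smul_right, mulVec_smul, ip_smul_left, ip_smul_right,
      ip_smul_left, ip_smul_right, hcon y, hcon z, mul_zero, mul_zero, zero_add, add_zero,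
      RCLike.star_def, Complex.conj_I] at c2
    apply hne
    have h3 : Complex.I * (2 * ip (prodVec a y) ((Ψ * Ψᴴ) *ᵥ prodVec a₀ z)) = 0 := by
      linear_combination c2 + Complex.I * c1
    have h4 := (mul_eq_zero.mp h3).resolve_left Complex.I_ne_zero
    exact (mul_eq_zero.mp h4).resolve_left two_ne_zero
  obtain ⟨b1, ha⟩ := hsq
  obtain ⟨s, t, hs, ht⟩ := exists_orth_sub2 b₀ b b1
  refine pos_of_pair hB Ψ hΨ hk0 hk hbb hs ht hces ?_
  -- the components along `b₀`, `b` do not contribute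
  have z0 : (Ψ * Ψᴴ) *ᵥ prodVec a₀ b₀ = 0 := by
    rw [← mulVec_mulVec, hk0, mulVec_zero]
  have e1 : ∀ y : B → ℂ, ip (prodVec a y) ((Ψ * Ψᴴ) *ᵥ prodVec a₀ (b1 - s • b₀ - t • b)) =
      ip (prodVec a y) ((Ψ * Ψᴴ) *ᵥ prodVec a₀ b1) := by
    intro y
    rw [prodVec_sub_right, prodVec_sub_right, prodVec_smul_right, prodVec_smul_right,
      mulVec_sub, mulVec_sub, mulVec_smul, mulVec_smul, z0, smul_zero, sub_zero, ip_sub_right,
      ip_smul_right, hpp' a a₀ b y hk, mul_zero, sub_zero]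
  rw [e1, prodVec_sub_right, prodVec_sub_right, prodVec_smul_right, prodVec_smul_right,
    ip_sub_left, ip_sub_left, ip_smul_left, ip_smul_left]
  have z1 : ip (prodVec a b) ((Ψ * Ψᴴ) *ᵥ prodVec a₀ b1) = 0 := by
    rw [← mulVec_mulVec]
    exact conj_mulVec_zero hk _
  have z2 : ip (prodVec a b₀) ((Ψ * Ψᴴ) *ᵥ prodVec a₀ b1) = 0 := hpp a₀ a b₀ b1 hk0
  rw [z1, z2, mul_zero, mul_zero, sub_zero, sub_zero]
  exact ha

/-- In all dimensions: a state such that the only product vector orthogonal to all product vectors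
of its kernel is `0` has two kernel product vectors `a₀ ⊗ b₀`, `a ⊗ b` with `b₀`, `b` independent
and `⟨a|ρ|a₀⟩ ≠ 0`. -/
theorem exists_pair (Ψ : Matrix (A × B) E ℂ) (hΨ : (Ψ * Ψᴴ).trace = 1)
    (hU : ∀ (α : A → ℂ) (β : B → ℂ), (∀ (a : A → ℂ) (b : B → ℂ),
      (Ψ * Ψᴴ) *ᵥ prodVec a b = 0 → star (prodVec a b) ⬝ᵥ prodVec α β = 0) →
        prodVec α β = 0) : ∃ (a₀ a : A → ℂ) (b₀ b y : B → ℂ), Ψᴴ *ᵥ prodVec a₀ b₀ = 0 ∧
      Ψᴴ *ᵥ prodVec a b = 0 ∧ LinearIndependent ℂ ![b₀, b] ∧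
      ip (prodVec a y) ((Ψ * Ψᴴ) *ᵥ prodVec a₀ y) ≠ 0 := by
  -- the kernel criterion in usable form
  have hU' : ∀ (α : A → ℂ) (β : B → ℂ), α ≠ 0 → β ≠ 0 → ∃ (a : A → ℂ) (b : B → ℂ),
      Ψᴴ *ᵥ prodVec a b = 0 ∧ ip a α ≠ 0 ∧ ip b β ≠ 0 := by
    intro α β hα hβ
    by_contra hcon
    have h0 : prodVec α β = 0 := by
      apply hU
      intro a b hab
      rw [self_mul_conjTranspose_mulVec_eq_zero] at hab
      by_contra h
      apply hcon
      have h' : ip a α * ip b β ≠ 0 := by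
        rw [← ip_prodVec]; exact h
      exact ⟨a, b, hab, left_ne_zero_of_mul h', right_ne_zero_of_mul h'⟩
    rcases prodVec_eq_zero h0 with h | h
    · exact hα h
    · exact hβ h
  have hne0 : ∀ (a : A → ℂ) (b1 : B → ℂ), Ψᴴ *ᵥ prodVec a b1 ≠ 0 →
      (fun x => ip b1 (fun y => ((Ψ * Ψᴴ) *ᵥ prodVec a b1) (x, y))) ≠ 0 := by
    intro a b1 h h0
    apply h
    apply ip_self_eq_zero
    rw [← ip_mul_conj, ip_prodVec_fiber, h0, ip_zero_right]
  -- a product vector outside the kernel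
  obtain ⟨α, b1, hαb⟩ : ∃ (α : A → ℂ) (b1 : B → ℂ), Ψᴴ *ᵥ prodVec α b1 ≠ 0 := by
    by_contra hcon
    push Not at hcon
    have h0 : Ψᴴ = 0 := by
      apply ext_of_mulVec_single
      rintro ⟨x, y⟩
      have h1 : (Pi.single (x, y) (1 : ℂ) : A × B → ℂ)
          = prodVec (Pi.single x 1) (Pi.single y 1) := by
        ext ⟨x', y'⟩
        simp only [prodVec, Pi.single_apply, Prod.mk.injEq]
        by_cases hx : x' = x <;> by_cases hy : y' = y <;> simp [hx, hy]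
      rw [h1, hcon, zero_mulVec]
    rw [h0, Matrix.mul_zero, trace_zero] at hΨ
    exact zero_ne_one hΨ
  have hb1 : b1 ≠ 0 := by
    rintro rfl
    apply hαb
    have : prodVec α (0 : B → ℂ) = 0 := by
      ext q
      simp only [prodVec, Pi.zero_apply, mul_zero]
    rw [this, mulVec_zero]
  obtain ⟨a0, b0, hk0, ha0, hb0⟩ := hU' _ b1 (hne0 α b1 hαb) hb1
  have hb00 : b0 ≠ 0 := by
    rintro rfl
    exact hb0 (ip_zero_left _)
  have ha0b1 : Ψᴴ *ᵥ prodVec a0 b1 ≠ 0 := by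
    intro h
    apply ha0
    rw [← ip_prodVec_fiber, ip_mul_conj, h, ip_zero_left]
  obtain ⟨c, hc⟩ := exists_orth_sub b0 b1
  have hβ' : b1 - c • b0 ≠ 0 := by
    intro h
    apply ha0b1
    rw [sub_eq_zero.mp h, prodVec_smul_right, mulVec_smul, hk0, smul_zero]
  obtain ⟨a, b, hk, ha, hb⟩ := hU' _ _ (hne0 a0 b1 ha0b1) hβ'
  refine ⟨a0, a, b0, b, b1, hk0, hk, linInd_pair hb00 fun t ht => hb ?_, ?_⟩
  · rw [ht, ip_smul_left, hc, mul_zero]
  · rw [ip_prodVec_fiber]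
    exact ha

/-- A state on `ℂ^d ⊗ ℂ^b`, `b ≤ 4`, such that the only product vector orthogonal to all product
vectors of its kernel is `0` has positive distillable key. -/
theorem kernel_unextendible4 (hB : Fintype.card B ≤ 4) (Ψ : Matrix (A × B) E ℂ)
    (hΨ : (Ψ * Ψᴴ).trace = 1)
    (hU : ∀ (α : A → ℂ) (β : B → ℂ), (∀ (a : A → ℂ) (b : B → ℂ),
      (Ψ * Ψᴴ) *ᵥ prodVec a b = 0 → star (prodVec a b) ⬝ᵥ prodVec α β = 0) →
        prodVec α β = 0) : 0 < distillableKey Ψ := by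
  obtain ⟨a₀, a, b₀, b, y, hk0, hk, hbb, hne⟩ := exists_pair Ψ hΨ hU
  refine pos_of_pair' hB Ψ hΨ hk0 hk hbb (fun v α' β h _ _ => ?_) hne
  rw [h]
  apply hU
  intro a' b' hab
  rw [self_mul_conjTranspose_mulVec_eq_zero] at hab
  rw [← h]
  exact conj_mulVec_zero hab v

end Vale.Agent.P372.H750
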