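import Vale.Agent.P372.H750.Block

/-! Positive distillable key from a quadratic form inequality on the range of the state. -/

open Matrix Kronecker
open scoped ComplexOrder MatrixOrder

set_option linter.unusedSectionVars false

namespace Vale.Agent.P372.H750

variable {A B E n : Type} [Fintype A] [DecidableEq A] [Fintype B] [DecidableEq B]
  [Fintype E] [DecidableEq E] [Fintype n] [DecidableEq n]

theorem eps_small {Z : Matrix n n ℂ} (hZ : Z.IsHermitian) :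
    ∃ ε : ℝ, 0 < ε ∧ ∀ t : ℝ, |t| ≤ ε → (1 + (t : ℂ) • Z).PosSemidef := by
  obtain ⟨ε, hε, h1, h2⟩ := T1.exists_eps hZ
  refine ⟨ε, hε, fun t ht => ?_⟩
  rw [abs_le] at ht
  have e : 1 + (t : ℂ) • Z = (((1 + t / ε) / 2 : ℝ) : ℂ) • (1 + (ε : ℂ) • Z) +
      (((1 - t / ε) / 2 : ℝ) : ℂ) • (1 - (ε : ℂ) • Z) := by
    ext i j
    simp only [Matrix.add_apply, Matrix.smul_apply, Matrix.sub_apply, smul_eq_mul]
    push_cast
    have : (ε : ℂ) ≠ 0 := by exact_mod_cast hε.ne'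
    field_simp
    ring
  rw [e]
  have h3 : -1 ≤ t / ε := by rw [le_div_iff₀ hε]; linarith
  have h4 : t / ε ≤ 1 := by rw [div_le_iff₀ hε]; linarith
  refine (h1.smul ?_).add (h2.smul ?_)
  · have : (0 : ℝ) ≤ (1 + t / ε) / 2 := by linarith
    exact_mod_cast this
  · have : (0 : ℝ) ≤ (1 - t / ε) / 2 := by linarith
    exact_mod_cast this

/-- The real part of `tr Ψᴴ Z Ψ`. -/
def tq (Ψ : Matrix n E ℂ) (Z : Matrix n n ℂ) : ℝ := (Ψᴴ * Z * Ψ).trace.re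

theorem tq_add (Ψ : Matrix n E ℂ) (Z Z' : Matrix n n ℂ) : tq Ψ (Z + Z') = tq Ψ Z + tq Ψ Z' := by
  rw [tq, Matrix.mul_add, Matrix.add_mul, trace_add, Complex.add_re]; rfl

theorem tq_sub (Ψ : Matrix n E ℂ) (Z Z' : Matrix n n ℂ) : tq Ψ (Z - Z') = tq Ψ Z - tq Ψ Z' := by
  rw [tq, Matrix.mul_sub, Matrix.sub_mul, trace_sub, Complex.sub_re]; rfl

theorem tq_smul (Ψ : Matrix n E ℂ) (c : ℝ) (Z : Matrix n n ℂ) :
    tq Ψ ((c : ℂ) • Z) = c * tq Ψ Z := by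
  rw [tq, Matrix.mul_smul, Matrix.smul_mul, trace_smul, smul_eq_mul, Complex.re_ofReal_mul]; rfl

theorem tq_conjTranspose (Ψ : Matrix n E ℂ) (Z : Matrix n n ℂ) : tq Ψ Zᴴ = tq Ψ Z := by
  have : Ψᴴ * Zᴴ * Ψ = (Ψᴴ * Z * Ψ)ᴴ := by
    rw [conjTranspose_mul, conjTranspose_mul, conjTranspose_conjTranspose, Matrix.mul_assoc]
  rw [tq, this, trace_conjTranspose, RCLike.star_def, Complex.conj_re]; rfl

theorem qf_conj (Ψ : Matrix n E ℂ) (Z : Matrix n n ℂ) (p q : E → ℂ) :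
    qf (Ψᴴ * Z * Ψ) p q = qf Z (Ψ *ᵥ p) (Ψ *ᵥ q) := by
  rw [qf_mulVec_left, qf_mulVec_right]

theorem hs_tq (Ψ : Matrix (A × B) E ℂ) (X : Matrix A A ℂ) (Y : Matrix B B ℂ) :
    hs ((X ⊗ₖ Y) * Ψ) = tq Ψ ((Xᴴ * X) ⊗ₖ (Yᴴ * Y)) := by
  rw [hs_eq_re, tq, conjTranspose_mul, mul_kronecker_mul, ← conjTranspose_kronecker]
  simp only [Matrix.mul_assoc]

theorem gram (Ψ : Matrix (A × B) E ℂ) (X : Matrix A A ℂ) (Y : Matrix B B ℂ) :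
    ((X ⊗ₖ Y) * Ψ)ᴴ * ((X ⊗ₖ Y) * Ψ) = Ψᴴ * ((Xᴴ * X) ⊗ₖ (Yᴴ * Y)) * Ψ := by
  rw [conjTranspose_mul, mul_kronecker_mul, ← conjTranspose_kronecker]
  simp only [Matrix.mul_assoc]

theorem num_final {m x y c F w00 w01 w10 w11 : ℝ} (h0 : 0 < c) (hF : m ≤ F)
    (e00 : w00 = m + x + y + c) (e01 : w01 = m + x - y - c) (e10 : w10 = m - x + y - c)
    (e11 : w11 = m - x - y + c) (_n00 : 0 ≤ w00) (n01 : 0 ≤ w01) (n10 : 0 ≤ w10) (_n11 : 0 ≤ w11) :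
    w00 * w01 * w10 * w11 < F ^ 4 := by
  have h1 : w00 * w11 ≤ (m + c) ^ 2 := by
    rw [e00, e11]
    nlinarith [sq_nonneg (x + y)]
  have h2 : w01 * w10 ≤ (m - c) ^ 2 := by
    rw [e01, e10]
    nlinarith [sq_nonneg (x - y)]
  have hmc : c ≤ m := by linarith
  have hm : 0 < m := by linarith
  have h3 : w00 * w01 * w10 * w11 ≤ (m + c) ^ 2 * (m - c) ^ 2 := by
    have : w00 * w01 * w10 * w11 = (w00 * w11) * (w01 * w10) := by ring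
    rw [this]
    exact mul_le_mul h1 h2 (mul_nonneg n01 n10) (sq_nonneg _)
  have h4 : (m + c) ^ 2 * (m - c) ^ 2 < m ^ 4 := by
    have e : (m + c) ^ 2 * (m - c) ^ 2 = (m ^ 2 - c ^ 2) ^ 2 := by ring
    have e' : m ^ 4 = (m ^ 2) ^ 2 := by ring
    rw [e, e']
    refine pow_lt_pow_left₀ ?_ ?_ two_ne_zero
    · nlinarith
    · nlinarith
  exact h3.trans_lt (h4.trans_le (pow_le_pow_left₀ hm.le hF 4))

theorem kron_sub_one {M : Matrix A A ℂ} {N : Matrix B B ℂ} (hM : (M - 1).PosSemidef)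
    (hN : (N - 1).PosSemidef) : (M ⊗ₖ N - 1).PosSemidef := by
  have hN0 : N.PosSemidef := by
    have := hN.add (PosSemidef.one (n := B) (R := ℂ))
    rwa [sub_add_cancel] at this
  have e : M ⊗ₖ N - 1 = (M - 1) ⊗ₖ N + 1 ⊗ₖ (N - 1) := by
    rw [← one_kronecker_one]
    ext p q
    simp only [Matrix.sub_apply, Matrix.add_apply, kroneckerMap_apply]
    ring
  rw [e]
  exact (hM.kronecker hN0).add (PosSemidef.one.kronecker hN)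

/-- Positive distillable key from a quadratic form inequality on the range of the state. -/
theorem pos_of_form (Ψ : Matrix (A × B) E ℂ) (hΨ : (Ψ * Ψᴴ).trace = 1) {X M : Matrix A A ℂ}
    {Y N : Matrix B B ℂ} {L : Matrix (A × B) (A × B) ℂ} {δ : ℝ} (hX : X.IsHermitian)
    (hY : Y.IsHermitian) (hM : (M - 1).PosSemidef) (hN : (N - 1).PosSemidef)
    (hc : 2 * δ ≤ tq Ψ (X ⊗ₖ Y)) (hc0 : 0 < tq Ψ (X ⊗ₖ Y))
    (h1 : ∀ e f : E → ℂ, qf L (Ψ *ᵥ e) (Ψ *ᵥ f) + qf L (Ψ *ᵥ f) (Ψ *ᵥ e) =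
      2 * qf (X ⊗ₖ N + M ⊗ₖ Y) (Ψ *ᵥ e) (Ψ *ᵥ f))
    (h2 : ∀ (e : E → ℂ) (f : A × B → ℂ), 0 ≤ 2 * qf (M ⊗ₖ N) (Ψ *ᵥ e) (Ψ *ᵥ e) +
      2 * qf L (Ψ *ᵥ e) f + δ * qf (1 : Matrix (A × B) (A × B) ℂ) f f) :
    0 < distillableKey Ψ := by
  have hMNh : (M ⊗ₖ N).IsHermitian := by
    have := ((kron_sub_one hM hN).add (PosSemidef.one (n := A × B) (R := ℂ))).1
    rwa [sub_add_cancel] at this
  have hZh : (X ⊗ₖ Y - (δ : ℂ) • (1 : Matrix (A × B) (A × B) ℂ)).IsHermitian := by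
    rw [IsHermitian, conjTranspose_sub, conjTranspose_kronecker, hX.eq, hY.eq, conjTranspose_smul,
      conjTranspose_one, RCLike.star_def, Complex.conj_ofReal]
  obtain ⟨ε₁, hε₁, hX1⟩ := eps_small hX
  obtain ⟨ε₂, hε₂, hY1⟩ := eps_small hY
  obtain ⟨ε₃, hε₃, hZ1⟩ := eps_small hZh
  obtain ⟨η, hη, hη1, hη2, hη3⟩ : ∃ η : ℝ, 0 < η ∧ η ≤ ε₁ ∧ η ≤ ε₂ ∧ 2 * η ^ 2 ≤ ε₃ := by
    refine ⟨min (min ε₁ ε₂) (min 1 (ε₃ / 2)), ?_, ?_, ?_, ?_⟩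
    · exact lt_min (lt_min hε₁ hε₂) (lt_min one_pos (by linarith))
    · exact (min_le_left _ _).trans (min_le_left _ _)
    · exact (min_le_left _ _).trans (min_le_right _ _)
    · set η := min (min ε₁ ε₂) (min 1 (ε₃ / 2)) with hη
      have a0 : 0 < η := lt_min (lt_min hε₁ hε₂) (lt_min one_pos (by linarith))
      have a1 : η ≤ 1 := (min_le_right _ _).trans (min_le_left _ _)
      have a2 : η ≤ ε₃ / 2 := (min_le_right _ _).trans (min_le_right _ _)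
      nlinarith
  have habs : |η| ≤ ε₁ := by rwa [abs_of_pos hη]
  have habs' : |η| ≤ ε₂ := by rwa [abs_of_pos hη]
  -- the operators
  have pM : ∀ t : ℝ, |t| ≤ ε₁ → (M + (t : ℂ) • X).PosSemidef := by
    intro t ht
    have := hM.add (hX1 t ht)
    have e : M - 1 + (1 + (t : ℂ) • X) = M + (t : ℂ) • X := by abel
    rwa [e] at this
  have pN : ∀ t : ℝ, |t| ≤ ε₂ → (N + (t : ℂ) • Y).PosSemidef := by
    intro t ht
    have := hN.add (hY1 t ht)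
    have e : N - 1 + (1 + (t : ℂ) • Y) = N + (t : ℂ) • Y := by abel
    rwa [e] at this
  obtain ⟨X₀, hX₀⟩ := exists_eq_conjTranspose_mul_self (pM η habs)
  obtain ⟨X₁, hX₁⟩ := exists_eq_conjTranspose_mul_self (pM (-η) (by rwa [abs_neg]))
  obtain ⟨Y₀, hY₀⟩ := exists_eq_conjTranspose_mul_self (pN η habs')
  obtain ⟨Y₁, hY₁⟩ := exists_eq_conjTranspose_mul_self (pN (-η) (by rwa [abs_neg]))
  have kr : ∀ s t : ℝ, (M + (s : ℂ) • X) ⊗ₖ (N + (t : ℂ) • Y) =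
      M ⊗ₖ N + (s : ℂ) • (X ⊗ₖ N) + (t : ℂ) • (M ⊗ₖ Y) + ((s * t : ℝ) : ℂ) • (X ⊗ₖ Y) := by
    intro s t
    ext p q
    simp only [Matrix.add_apply, Matrix.smul_apply, kroneckerMap_apply, smul_eq_mul]
    push_cast
    ring
  refine pos_of_rect_one Ψ hΨ X₀ X₁ Y₀ Y₁ ?_
  have hF := fidelity_ge_corner ((X₀ ⊗ₖ Y₀) * Ψ) ((X₁ ⊗ₖ Y₁) * Ψ)
    (Ψᴴ * (M ⊗ₖ N + ((η ^ 2 : ℝ) : ℂ) • (X ⊗ₖ Y) -
      ((2 * η ^ 2 * δ : ℝ) : ℂ) • (1 : Matrix (A × B) (A × B) ℂ) +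
      ((η / 2 : ℝ) : ℂ) • (Lᴴ - L)) * Ψ) (by
    intro p q
    rw [gram, gram, ← hX₀, ← hY₀, ← hX₁, ← hY₁, kr, kr, qf_conj, qf_conj, qf_conj]
    set P := Ψ *ᵥ p with hP
    set Q := Ψ *ᵥ q with hQ
    have a1 := h1 p p
    have a2 := h1 p q
    have a4 := h1 q q
    have b := h2 (p + q) ((2 * η) • (P - Q))
    have c1 : 0 ≤ qf (1 + ((2 * η ^ 2 : ℝ) : ℂ) • (X ⊗ₖ Y - (δ : ℂ) •
        (1 : Matrix (A × B) (A × B) ℂ))) (P + Q) (P + Q) := by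
      refine qf_nonneg (hZ1 _ ?_) _
      rw [abs_of_nonneg (by positivity)]
      exact hη3
    have c2 : 0 ≤ qf (M ⊗ₖ N - 1) (P + Q) (P + Q) := qf_nonneg (kron_sub_one hM hN) _
    rw [mulVec_add, ← hP, ← hQ] at b
    rw [← hP, ← hQ] at a2
    rw [← hP] at a1
    rw [← hQ] at a4
    have s1 := qf_herm hMNh Q P
    have s2 := qf_herm (Z := X ⊗ₖ Y) (by
      rw [IsHermitian, conjTranspose_kronecker, hX.eq, hY.eq]) Q P
    have s3 := qf_herm (Z := (1 : Matrix (A × B) (A × B) ℂ)) isHermitian_one Q P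
    simp only [qf_add, qf_sub, qf_smul, qf_conjTranspose, qf_add_left, qf_add_right,
      qf_sub_left, qf_sub_right, qf_smul_left, qf_smul_right] at a1 a2 a4 b c1 c2 ⊢
    rw [s1, s2, s3] at *
    have a1' := congrArg (fun z => η * z) a1
    have a2' := congrArg (fun z => η * z) a2
    have a4' := congrArg (fun z => η * z) a4
    beta_reduce at a1' a2' a4'
    linarith [a1', a2', a4', b, c1, c2])
  have hFv : tq Ψ (M ⊗ₖ N) ≤ traceNorm ((X₀ ⊗ₖ Y₀) * (Ψ * Ψᴴ) * (X₁ ⊗ₖ Y₁)ᴴ) := by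
    have e : (X₀ ⊗ₖ Y₀) * Ψ * ((X₁ ⊗ₖ Y₁) * Ψ)ᴴ = (X₀ ⊗ₖ Y₀) * (Ψ * Ψᴴ) * (X₁ ⊗ₖ Y₁)ᴴ := by
      rw [conjTranspose_mul]
      simp only [Matrix.mul_assoc]
    rw [e] at hF
    refine le_trans ?_ hF
    change tq Ψ (M ⊗ₖ N) ≤ tq Ψ _
    have t1 : tq Ψ 1 = 1 := by
      rw [tq, Matrix.mul_one, trace_mul_comm, hΨ, Complex.one_re]
    rw [tq_add, tq_sub, tq_add, tq_smul, tq_smul, tq_smul, tq_sub, tq_conjTranspose, t1]
    nlinarith [mul_le_mul_of_nonneg_left hc (sq_nonneg η)]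
  refine num_final (m := tq Ψ (M ⊗ₖ N)) (x := η * tq Ψ (X ⊗ₖ N)) (y := η * tq Ψ (M ⊗ₖ Y))
    (c := η ^ 2 * tq Ψ (X ⊗ₖ Y)) (by positivity) hFv ?_ ?_ ?_ ?_ (hs_nonneg _) (hs_nonneg _)
    (hs_nonneg _) (hs_nonneg _)
  · rw [hs_tq, ← hX₀, ← hY₀, kr, tq_add, tq_add, tq_add, tq_smul, tq_smul, tq_smul]
    ring
  · rw [hs_tq, ← hX₀, ← hY₁, kr, tq_add, tq_add, tq_add, tq_smul, tq_smul, tq_smul]
    ring
  · rw [hs_tq, ← hX₁, ← hY₀, kr, tq_add, tq_add, tq_add, tq_smul, tq_smul, tq_smul]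
    ring
  · rw [hs_tq, ← hX₁, ← hY₁, kr, tq_add, tq_add, tq_add, tq_smul, tq_smul, tq_smul]
    ring

end Vale.Agent.P372.H750
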