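import Mathlib.Analysis.Complex.Polynomial.Basic
import Mathlib.LinearAlgebra.Eigenspace.Triangularizable
import Vale.Agent.P372.H750.Crit

/-! Linear algebra for product vectors. -/

open Matrix Kronecker
open scoped ComplexOrder MatrixOrder

set_option linter.unusedSectionVars false

namespace Vale.Agent.P372.H750

open UPB

variable {A B E n : Type} [Fintype A] [DecidableEq A] [Fintype B] [DecidableEq B]
  [Fintype E] [DecidableEq E] [Fintype n] [DecidableEq n]

theorem ip_add_right (u v w : n → ℂ) : ip u (v + w) = ip u v + ip u w := by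
  rw [ip, dotProduct_add]; rfl

theorem ip_add_left (u v w : n → ℂ) : ip (u + v) w = ip u w + ip v w := by
  rw [ip, star_add, add_dotProduct]; rfl

theorem ip_sub_right (u v w : n → ℂ) : ip u (v - w) = ip u v - ip u w := by
  rw [ip, dotProduct_sub]; rfl

theorem ip_sub_left (u v w : n → ℂ) : ip (u - v) w = ip u w - ip v w := by
  rw [ip, star_sub, sub_dotProduct]; rfl

theorem ip_zero_left (u : n → ℂ) : ip 0 u = 0 := by
  rw [ip, star_zero, zero_dotProduct]

theorem ip_comm_zero {u v : n → ℂ} (h : ip u v = 0) : ip v u = 0 := by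
  rw [← ip_star, h, star_zero]

theorem exists_orth_sub (u v : n → ℂ) : ∃ c : ℂ, ip u (v - c • u) = 0 := by
  by_cases hu : u = 0
  · exact ⟨0, by rw [hu, ip_zero_left]⟩
  · have h : ip u u ≠ 0 := fun h => hu (ip_self_eq_zero h)
    refine ⟨ip u v / ip u u, ?_⟩
    rw [ip_sub_right, ip_smul_right, div_mul_cancel₀ _ h, sub_self]

theorem exists_orth_sub2 (u w v : n → ℂ) :
    ∃ s t : ℂ, ip u (v - s • u - t • w) = 0 ∧ ip w (v - s • u - t • w) = 0 := by
  obtain ⟨c₀, h0⟩ := exists_orth_sub u w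
  obtain ⟨c₁, h1⟩ := exists_orth_sub u v
  obtain ⟨c₂, h2⟩ := exists_orth_sub (w - c₀ • u) (v - c₁ • u)
  have e : v - (c₁ - c₂ * c₀) • u - c₂ • w = v - c₁ • u - c₂ • (w - c₀ • u) := by
    rw [sub_smul, smul_sub, mul_smul]
    abel
  have h3 : ip u (v - c₁ • u - c₂ • (w - c₀ • u)) = 0 := by
    rw [ip_sub_right, h1, ip_smul_right, h0, mul_zero, sub_zero]
  refine ⟨c₁ - c₂ * c₀, c₂, ?_, ?_⟩
  · rw [e, h3]
  · rw [e]
    have h4 : w = (w - c₀ • u) + c₀ • u := by abel
    have h5 : ip w (v - c₁ • u - c₂ • (w - c₀ • u)) =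
        ip ((w - c₀ • u) + c₀ • u) (v - c₁ • u - c₂ • (w - c₀ • u)) := by rw [← h4]
    rw [h5, ip_add_left, h2, ip_smul_left, h3, mul_zero, add_zero]

/-- The contraction of a vector with `y` on the second system. -/
def ctr (y : B → ℂ) : (A × B → ℂ) →ₗ[ℂ] (A → ℂ) where
  toFun v := fun a => ip y (fun b => v (a, b))
  map_add' v w := by
    ext a
    exact ip_add_right _ _ _
  map_smul' c v := by
    ext a
    exact ip_smul_right _ _ _

theorem ctr_apply (y : B → ℂ) (v : A × B → ℂ) (a : A) :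
    ctr y v a = ip y (fun b => v (a, b)) := rfl

theorem ip_prodVec_ctr (a : A → ℂ) (y : B → ℂ) (v : A × B → ℂ) :
    ip (prodVec a y) v = ip a (ctr y v) := UPB.ip_prodVec_fiber a y v

theorem ctr_sub (y z : B → ℂ) (v : A × B → ℂ) : ctr (y - z) v = ctr y v - ctr z v := by
  ext a
  simp only [ctr_apply, Pi.sub_apply, ip_sub_left]

theorem ctr_smul (c : ℂ) (y : B → ℂ) (v : A × B → ℂ) : ctr (c • y) v = star c • ctr y v := by
  ext a
  simp only [ctr_apply, Pi.smul_apply, ip_smul_left, smul_eq_mul]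

theorem linearIndependent_star {k : ℕ} {y : Fin k → n → ℂ} (h : LinearIndependent ℂ y) :
    LinearIndependent ℂ (fun i => star (y i)) := by
  rw [Fintype.linearIndependent_iff] at h ⊢
  intro g hg i
  have h1 := congrArg star hg
  rw [star_sum, star_zero] at h1
  simp only [star_smul, star_star] at h1
  have h2 := h (fun i => star (g i)) h1 i
  exact star_eq_zero.mp h2

/-- A vector annihilated by the contractions with enough vectors is a product vector. -/
theorem prod_of_ctr {k : ℕ} {y : Fin k → B → ℂ} (hy : LinearIndependent ℂ y)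
    (hk : Fintype.card B ≤ k + 1) {v : A × B → ℂ} (hv : ∀ i, ctr (y i) v = 0) :
    ∃ (α : A → ℂ) (β : B → ℂ), v = prodVec α β := by
  set Z : Matrix (Fin k) B ℂ := fun i => star (y i) with hZ
  have hr : Z.rank = k := by
    have := LinearIndependent.rank_matrix (M := Z) (linearIndependent_star hy)
    rwa [Fintype.card_fin] at this
  have hker : Module.finrank ℂ (LinearMap.ker Z.mulVecLin) ≤ 1 := by
    have h1 := LinearMap.finrank_range_add_finrank_ker Z.mulVecLin
    rw [Module.finrank_fintype_fun_eq_card] at h1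
    have h2 : Module.finrank ℂ (LinearMap.range Z.mulVecLin) = k := hr
    omega
  obtain ⟨⟨β, hβ⟩, h1⟩ := finrank_le_one_iff.mp hker
  have hrow : ∀ a, (fun b => v (a, b)) ∈ LinearMap.ker Z.mulVecLin := by
    intro a
    rw [LinearMap.mem_ker, mulVecLin_apply]
    ext i
    exact congrFun (hv i) a
  choose c hc using fun a => h1 ⟨_, hrow a⟩
  refine ⟨c, β, ?_⟩
  ext ⟨a, b⟩
  have := congrFun (congrArg Subtype.val (hc a)) b
  exact this.symm

/-- The double orthogonal complement. -/
theorem exists_orth_notMem {R : Submodule ℂ (n → ℂ)} {w : n → ℂ} (hw : w ∉ R) :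
    ∃ α : n → ℂ, (∀ r ∈ R, ip α r = 0) ∧ ip α w ≠ 0 := by
  obtain ⟨f, hf1, hf2⟩ := Submodule.exists_le_ker_of_notMem hw
  have h : ∀ r : n → ℂ, ip (fun i => star (f (Pi.single i 1))) r = f r := by
    intro r
    have h1 : r = ∑ i, r i • (Pi.single i (1 : ℂ) : n → ℂ) := by
      ext j
      simp [Finset.sum_apply, Pi.single_apply]
    conv_rhs => rw [h1]
    rw [map_sum, ip_def]
    refine Finset.sum_congr rfl fun i _ => ?_
    rw [star_star, map_smul, smul_eq_mul, mul_comm]
  refine ⟨fun i => star (f (Pi.single i 1)), fun r hr => ?_, ?_⟩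
  · rw [h]
    exact hf2 hr
  · rw [h]
    exact hf1

/-- Two linear maps with nested ranges have a common eigenvector. -/
theorem exists_eigen {V U : Type} [AddCommGroup V] [Module ℂ V] [FiniteDimensional ℂ V]
    [Nontrivial V] [AddCommGroup U] [Module ℂ U] (f g : V →ₗ[ℂ] U) (hf : Function.Injective f)
    (hfg : ∀ v, g v ∈ LinearMap.range f) : ∃ (c : ℂ) (v : V), v ≠ 0 ∧ g v = c • f v := by
  let e := LinearEquiv.ofInjective f hf
  let T : V →ₗ[ℂ] V := e.symm.toLinearMap ∘ₗ (g.codRestrict (LinearMap.range f) hfg)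
  obtain ⟨c, hc⟩ := Module.End.exists_eigenvalue T
  obtain ⟨v, hv⟩ := hc.exists_hasEigenvector
  refine ⟨c, v, hv.2, ?_⟩
  have h1 : T v = c • v := hv.apply_eq_smul
  have h2 : e (T v) = ⟨g v, hfg v⟩ := e.apply_symm_apply _
  rw [h1, map_smul] at h2
  have h3 := congrArg Subtype.val h2
  exact h3.symm

theorem linInd_pair {b₀ b : n → ℂ} (h0 : b₀ ≠ 0) (h : ∀ c : ℂ, b ≠ c • b₀) :
    LinearIndependent ℂ ![b₀, b] := by
  rw [LinearIndependent.pair_iff]
  intro s t hst
  have ht : t = 0 := by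
    by_contra ht
    apply h (-(s / t))
    have h1 : t • b = -(s • b₀) := by
      rw [add_comm] at hst
      exact eq_neg_of_add_eq_zero_left hst
    have h2 : b = t⁻¹ • (t • b) := by rw [smul_smul, inv_mul_cancel₀ ht, one_smul]
    rw [h2, h1, smul_neg, smul_smul, neg_smul, div_eq_mul_inv, mul_comm s]
  refine ⟨?_, ht⟩
  rw [ht, zero_smul, add_zero] at hst
  exact (smul_eq_zero.mp hst).resolve_right h0

/-- Adding a vector outside the span. -/
theorem linInd_triple {b₀ b x : n → ℂ} (h : LinearIndependent ℂ ![b₀, b])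
    (hx : ∀ s t : ℂ, x ≠ s • b₀ + t • b) : LinearIndependent ℂ ![b₀, b, x] := by
  rw [LinearIndependent.pair_iff] at h
  rw [Fintype.linearIndependent_iff]
  intro g hg
  have h1 : g 0 • b₀ + g 1 • b + g 2 • x = 0 := by
    rw [← hg, Fin.sum_univ_three]
    rfl
  have h2 : g 2 = 0 := by
    by_contra h2
    apply hx (-(g 0 / g 2)) (-(g 1 / g 2))
    have h3 : x = (g 2)⁻¹ • (g 2 • x) := by rw [smul_smul, inv_mul_cancel₀ h2, one_smul]
    have h4 : g 2 • x = -(g 0 • b₀ + g 1 • b) := by
      rw [add_comm] at h1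
      exact eq_neg_of_add_eq_zero_left h1
    rw [h3, h4, smul_neg, smul_add, smul_smul, smul_smul, neg_smul, neg_smul, neg_add,
      div_eq_mul_inv, div_eq_mul_inv, mul_comm (g 0), mul_comm (g 1)]
  rw [h2, zero_smul, add_zero] at h1
  have h3 := h _ _ h1
  intro i
  fin_cases i
  · exact h3.1
  · exact h3.2
  · exact h2

end Vale.Agent.P372.H750
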