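import Vale.Agent.P372.H750.Lin

/-! States on `ℂ^d ⊗ ℂ^b`, `b ≤ 4`, with an unextendible set of product vectors in the kernel. -/

open Matrix Kronecker
open scoped ComplexOrder MatrixOrder

set_option linter.unusedSectionVars false

namespace Vale.Agent.P372.H750

open UPB

variable {A B E n : Type} [Fintype A] [DecidableEq A] [Fintype B] [DecidableEq B]
  [Fintype E] [DecidableEq E] [Fintype n] [DecidableEq n]

/-- The row matrix of a bra. -/
def bra (a : n → ℂ) : Matrix Unit n ℂ := fun _ x => star (a x)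

theorem bra_kron_mul (Ψ : Matrix (A × B) E ℂ) (a : A → ℂ) (b : B → ℂ) (p : Unit × Unit) (e : E) :
    ((bra a ⊗ₖ bra b) * Ψ) p e = star ((Ψᴴ *ᵥ prodVec a b) e) := by
  rw [mul_apply, mulVec, dotProduct, star_sum]
  refine Finset.sum_congr rfl fun q _ => ?_
  simp only [kroneckerMap_apply, bra, prodVec, conjTranspose_apply, star_mul', star_star]
  ring

/-- A kernel product vector and a nonzero entry of the partial transpose in its column. -/
theorem pos_of_entry (Ψ : Matrix (A × B) E ℂ) (hΨ : (Ψ * Ψᴴ).trace = 1) {a a' : A → ℂ}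
    {b b' : B → ℂ} (hab : Ψᴴ *ᵥ prodVec a b = 0)
    (h : ip (prodVec a' b) ((Ψ * Ψᴴ) *ᵥ prodVec a b') ≠ 0) : 0 < distillableKey Ψ := by
  refine pos_of_rect_one Ψ hΨ (bra a') (bra a) (bra b) (bra b') ?_
  have h1 : hs ((bra a ⊗ₖ bra b) * Ψ) = 0 := by
    unfold hs
    refine Finset.sum_eq_zero fun p _ => Finset.sum_eq_zero fun e _ => ?_
    rw [bra_kron_mul, hab, Pi.zero_apply, star_zero, norm_zero]
    norm_num
  rw [h1, mul_zero, zero_mul]
  refine pow_pos (lt_of_lt_of_le ?_ (norm_trace_le _)) 4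
  rw [norm_pos_iff]
  intro h0
  apply h
  have e : ((bra a' ⊗ₖ bra b) * (Ψ * Ψᴴ) * (bra a ⊗ₖ bra b')ᴴ).trace =
      ip (prodVec a' b) ((Ψ * Ψᴴ) *ᵥ prodVec a b') := by
    rw [trace, Fintype.sum_prod_type, Fintype.sum_unique, Fintype.sum_unique, diag_apply,
      Matrix.mul_assoc, mul_apply, ip_def]
    refine Finset.sum_congr rfl fun p _ => ?_
    have e1 : (bra a' ⊗ₖ bra b) (default, default) p = star (prodVec a' b p) := by
      simp only [kroneckerMap_apply, bra, prodVec, star_mul']
    rw [e1]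
    congr 1
    rw [mul_apply, mulVec, dotProduct]
    refine Finset.sum_congr rfl fun q _ => ?_
    congr 1
    rw [conjTranspose_apply]
    simp only [kroneckerMap_apply, bra, prodVec, star_mul', star_star]
  rw [← e, h0]

theorem prodVec_add_right (a : A → ℂ) (b b' : B → ℂ) :
    prodVec a (b + b') = prodVec a b + prodVec a b' := by
  ext p
  simp only [prodVec, Pi.add_apply]
  ring

theorem prodVec_smul_right (c : ℂ) (a : A → ℂ) (b : B → ℂ) :
    prodVec a (c • b) = c • prodVec a b := by
  ext p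
  simp only [prodVec, Pi.smul_apply, smul_eq_mul]
  ring

theorem prodVec_sub_right (a : A → ℂ) (b b' : B → ℂ) :
    prodVec a (b - b') = prodVec a b - prodVec a b' := by
  ext p
  simp only [prodVec, Pi.sub_apply]
  ring

/-- The form of `vecMulVec`. -/
theorem form_vmv (a a' : A → ℂ) (b b' : B → ℂ) (u v : A × B → ℂ) :
    star u ⬝ᵥ ((vecMulVec a (star a') ⊗ₖ vecMulVec b (star b')) *ᵥ v) =
      ip (prodVec a' b') v * ip u (prodVec a b) := by
  rw [vmv_kronecker, vmv_mulVec, dotProduct_smul, smul_eq_mul]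
  rfl

theorem vmv_one_mulVec_ne {α : A → ℂ} {v : A × B → ℂ} {y : B → ℂ}
    (h : ip (prodVec α y) v ≠ 0) :
    (vecMulVec α (star α) ⊗ₖ (1 : Matrix B B ℂ) + (1 : Matrix A A ℂ) ⊗ₖ (0 : Matrix B B ℂ)) *ᵥ v
      ≠ 0 := by
  intro h0
  rw [kronecker_zero, add_zero] at h0
  -- pair with `α ⊗ y`
  have h1 : ip (prodVec α y) ((vecMulVec α (star α) ⊗ₖ (1 : Matrix B B ℂ)) *ᵥ v) =
      ip α α * ip (prodVec α y) v := by
    have e : (vecMulVec α (star α) ⊗ₖ (1 : Matrix B B ℂ)) *ᵥ v =
        fun p => α p.1 * ip α (fun a => v (a, p.2)) := by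
      ext ⟨x, z⟩
      simp only [mulVec, dotProduct, kroneckerMap_apply, Fintype.sum_prod_type, vecMulVec_apply,
        ip_def, Finset.mul_sum, Pi.star_apply]
      refine Finset.sum_congr rfl fun a _ => ?_
      rw [Finset.sum_eq_single z]
      · rw [one_apply_eq]; ring
      · intro z' _ hz'
        rw [one_apply_ne (Ne.symm hz')]; ring
      · intro hz; exact absurd (Finset.mem_univ z) hz
    rw [e]
    simp only [ip_def, prodVec, Fintype.sum_prod_type, star_mul']
    rw [Finset.sum_comm, Finset.sum_mul_sum]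
    rw [Finset.sum_comm]
    refine Finset.sum_congr rfl fun x _ => ?_
    simp only [Finset.mul_sum]
    rw [Finset.sum_comm]
    refine Finset.sum_congr rfl fun a _ => Finset.sum_congr rfl fun z _ => ?_
    ring
  rw [h0, ip_zero_right] at h1
  rcases mul_eq_zero.mp h1.symm with h2 | h2
  · apply h
    rw [ip_self_eq_zero h2]
    have : prodVec (0 : A → ℂ) y = 0 := by
      ext p
      simp only [prodVec, Pi.zero_apply, zero_mul]
    rw [this, ip_zero_left]
  · exact h h2

theorem ctr_prodVec (y : B → ℂ) (α : A → ℂ) (β : B → ℂ) :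
    ctr y (prodVec α β) = ip y β • α := by
  ext a
  simp only [ctr_apply, ip_def, prodVec, Pi.smul_apply, smul_eq_mul, Finset.sum_mul]
  refine Finset.sum_congr rfl fun z _ => ?_
  ring

/-- In a subspace `S` without product vectors, annihilated by the contractions with two
independent vectors, there is a vector `α` with `α ⊗ x ⊥ S`, `α ⊗ B` not orthogonal to `S`. -/
theorem exists_heavy (hB : Fintype.card B ≤ 4) {S : Submodule ℂ (A × B → ℂ)} (hS : S ≠ ⊥)
    {b₀ b x : B → ℂ}
    (hces' : ∀ (α : A → ℂ) (β : B → ℂ), prodVec α β ∈ S → ip b₀ β = 0 → ip b β = 0 →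
      prodVec α β = 0) (hbb : LinearIndependent ℂ ![b₀, b]) (hx : x ≠ 0) (hx0 : ip b₀ x = 0)
    (hx1 : ip b x = 0) (h0 : ∀ v ∈ S, ctr b₀ v = 0) (h1 : ∀ v ∈ S, ctr b v = 0) :
    ∃ (α : A → ℂ) (y : B → ℂ), (∀ v ∈ S, ip (prodVec α x) v = 0) ∧
      ∃ v ∈ S, ip (prodVec α y) v ≠ 0 := by
  have hces : ∀ (α : A → ℂ) (β : B → ℂ), prodVec α β ∈ S → prodVec α β = 0 := by
    intro α β h
    by_cases hα : α = 0
    · ext p
      simp only [prodVec, hα, Pi.zero_apply, zero_mul]
    · have h2 := h0 _ h
      have h3 := h1 _ h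
      rw [ctr_prodVec] at h2 h3
      exact hces' α β h ((smul_eq_zero.mp h2).resolve_right hα)
        ((smul_eq_zero.mp h3).resolve_right hα)
  have hbbx : LinearIndependent ℂ ![b₀, b, x] := by
    refine linInd_triple hbb fun s t h => hx (ip_self_eq_zero ?_)
    have : ip x x = ip x (s • b₀ + t • b) := by rw [← h]
    rw [this, ip_add_right, ip_smul_right, ip_smul_right, ip_comm_zero hx0, ip_comm_zero hx1,
      mul_zero, mul_zero, add_zero]
  -- `ctr x` is injective on `S`
  have hinj : ∀ v ∈ S, ctr x v = 0 → v = 0 := by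
    intro v hv hxv
    obtain ⟨α, β, hαβ⟩ := prod_of_ctr hbbx (by omega) (v := v) (by
      intro i
      fin_cases i
      · exact h0 v hv
      · exact h1 v hv
      · exact hxv)
    rw [hαβ]
    exact hces α β (by rw [← hαβ]; exact hv)
  obtain ⟨v₀, hv₀, hv₀0⟩ := S.exists_mem_ne_zero_of_ne_bot hS
  by_contra hcon
  push Not at hcon
  -- a vector outside the span of `b₀`, `b`, `x`
  by_cases hy : ∀ y : B → ℂ, ∃ r s t : ℂ, y = r • b₀ + s • b + t • x
  · -- then all vectors of `S` are product vectors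
    have hB3 : Fintype.card B ≤ 3 := by
      have hspan : Submodule.span ℂ (Set.range ![b₀, b, x]) = ⊤ := by
        rw [eq_top_iff]
        intro y _
        obtain ⟨r, s, t, hrst⟩ := hy y
        rw [hrst]
        refine Submodule.add_mem _ (Submodule.add_mem _ (Submodule.smul_mem _ _ ?_)
          (Submodule.smul_mem _ _ ?_)) (Submodule.smul_mem _ _ ?_)
        · exact Submodule.subset_span ⟨0, rfl⟩
        · exact Submodule.subset_span ⟨1, rfl⟩
        · exact Submodule.subset_span ⟨2, rfl⟩
      have h2 := finrank_range_le_card (R := ℂ) ![b₀, b, x]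
      rw [Set.finrank, hspan, finrank_top, Module.finrank_fintype_fun_eq_card,
        Fintype.card_fin] at h2
      exact h2
    obtain ⟨α, β, hαβ⟩ := prod_of_ctr hbb (by omega) (v := v₀) (by
      intro i
      fin_cases i
      · exact h0 v₀ hv₀
      · exact h1 v₀ hv₀)
    apply hv₀0
    rw [hαβ]
    exact hces α β (by rw [← hαβ]; exact hv₀)
  · push Not at hy
    obtain ⟨y, hy⟩ := hy
    have : Nontrivial S := Submodule.nontrivial_iff_ne_bot.mpr hS
    obtain ⟨c, v, hv0, hv⟩ := exists_eigen ((ctr x).domRestrict S) ((ctr y).domRestrict S)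
      (by
        rw [← LinearMap.ker_eq_bot, LinearMap.ker_eq_bot']
        intro v hv
        exact Subtype.ext (hinj v.1 v.2 hv))
      (by
        intro v
        by_contra hv
        obtain ⟨α, hα1, hα2⟩ := exists_orth_notMem hv
        refine hα2 ?_
        have h2 := hcon α y (fun w hw => by
          rw [ip_prodVec_ctr]
          exact hα1 _ ⟨⟨w, hw⟩, rfl⟩) v.1 v.2
        rw [ip_prodVec_ctr] at h2
        exact h2)
    have hv' : ctr y v.1 = c • ctr x v.1 := hv
    have hind : LinearIndependent ℂ ![b₀, b, y - star c • x] := by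
      refine linInd_triple hbb fun s t h => hy s t (star c) ?_
      rw [← h]
      abel
    obtain ⟨α, β, hαβ⟩ := prod_of_ctr hind (by omega) (v := v.1) (by
      intro i
      fin_cases i
      · exact h0 v.1 v.2
      · exact h1 v.1 v.2
      · change ctr (y - star c • x) v.1 = 0
        rw [ctr_sub, ctr_smul, star_star, hv', sub_self])
    apply hv0
    refine Subtype.ext ?_
    rw [hαβ]
    exact hces α β (by rw [← hαβ]; exact v.2)

end Vale.Agent.P372.H750
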